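import Mathlib

namespace Vale.Agent.Lib.P068.CH

open Set

theorem no_desc (f : ℕ → Ordinal.{0}) (h : ∀ n, f (n + 1) < f n) : False := by
  have hwf := (wellFounded_lt (α := Ordinal.{0}))
  obtain ⟨x, ⟨n, rfl⟩, hx⟩ := hwf.has_min (Set.range f) ⟨f 0, 0, rfl⟩
  exact hx (f (n + 1)) ⟨n + 1, rfl⟩ (h n)

theorem desc_left (f : ℤ → Ordinal.{0}) {m : ℤ} (h : ∀ k ≤ m, f (k - 1) < f k) : False := by
  refine no_desc (fun n => f (m - n)) (fun n => ?_)
  have := h (m - n) (by omega)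
  have e : m - (n : ℤ) - 1 = m - ((n + 1 : ℕ) : ℤ) := by push_cast; ring
  rw [e] at this
  exact this

theorem desc_right (f : ℤ → Ordinal.{0}) {m : ℤ} (h : ∀ k ≥ m, f (k + 1) < f k) : False := by
  refine no_desc (fun n => f (m + n)) (fun n => ?_)
  have := h (m + n) (by omega)
  have e : m + (n : ℤ) + 1 = m + ((n + 1 : ℕ) : ℤ) := by push_cast; ring
  rw [e] at this
  exact this

theorem left_all {P : ℤ → Prop} (step : ∀ k, P k → P (k - 1)) {k₀ : ℤ} (h : P k₀) :
    ∀ j ≤ k₀, P j := by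
  have key : ∀ n : ℕ, P (k₀ - n) := by
    intro n
    induction n with
    | zero => simpa using h
    | succ n ih =>
      have := step _ ih
      have e : k₀ - (n : ℤ) - 1 = k₀ - ((n + 1 : ℕ) : ℤ) := by push_cast; ring
      rwa [e] at this
  intro j hj
  have := key (k₀ - j).toNat
  have e : k₀ - ((k₀ - j).toNat : ℤ) = j := by omega
  rwa [e] at this

theorem right_all {P : ℤ → Prop} (step : ∀ k, P k → P (k + 1)) {k₀ : ℤ} (h : P k₀) :
    ∀ j ≥ k₀, P j := by
  have key : ∀ n : ℕ, P (k₀ + n) := by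
    intro n
    induction n with
    | zero => simpa using h
    | succ n ih =>
      have := step _ ih
      have e : k₀ + (n : ℤ) + 1 = k₀ + ((n + 1 : ℕ) : ℤ) := by push_cast; ring
      rwa [e] at this
  intro j hj
  have := key (j - k₀).toNat
  have e : k₀ + ((j - k₀).toNat : ℤ) = j := by omega
  rwa [e] at this

/-- The combinatorial core: there is no labelled bi-infinite sequence of sets with the local
rules forced by a common independent set with the covering property. -/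
theorem no_sequence {L : Set (Set ℕ)} {r : Set ℕ → Ordinal.{0}} (hE : ∅ ∉ L) (hU : univ ∈ L)
    (X : ℤ → Set ℕ) (Q : ℤ → Prop)
    (b1 : ∀ k, ¬ Q k → Q (k + 1) → X k = ∅)
    (b2 : ∀ k, Q k → ¬ Q (k + 1) → X k = univ)
    (h01 : ∀ k, X (k - 1) ∉ L → X k ∈ L → ¬ Q k)
    (h10 : ∀ k, X (k - 1) ∈ L → X k ∉ L → Q k)
    (l11 : ∀ k ≤ 0, Q k → X (k - 1) ∈ L → X k ∈ L → r (X (k - 1)) < r (X k))
    (l00 : ∀ k ≤ 0, ¬ Q k → X (k - 1) ∉ L → X k ∉ L → r (X (k - 1))ᶜ < r (X k)ᶜ)
    (r11 : ∀ k ≥ 1, ¬ Q k → X (k - 1) ∈ L → X k ∈ L → r (X k) < r (X (k - 1)))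
    (r00 : ∀ k ≥ 1, Q k → X (k - 1) ∉ L → X k ∉ L → r (X k)ᶜ < r (X (k - 1))ᶜ) : False := by
  have P1 : ∀ k, ¬ (Q k ∧ X k ∈ L) := by
    rintro k₀ ⟨h1, h2⟩
    have step : ∀ k, (Q k ∧ X k ∈ L) → (Q (k - 1) ∧ X (k - 1) ∈ L) := by
      rintro k ⟨hQ, hX⟩
      have hX' : X (k - 1) ∈ L := by
        by_contra hc
        exact h01 k hc hX hQ
      refine ⟨?_, hX'⟩
      by_contra hc
      have := b1 (k - 1) hc (by rwa [sub_add_cancel])
      rw [this] at hX'
      exact hE hX'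
    have hall := left_all step ⟨h1, h2⟩
    refine desc_left (fun k => r (X k)) (m := min k₀ 0) (fun k hk => ?_)
    have hk0 : k ≤ k₀ := hk.trans (min_le_left _ _)
    have hk1 : k ≤ 0 := hk.trans (min_le_right _ _)
    exact l11 k hk1 (hall k hk0).1 (hall (k - 1) (by omega)).2 (hall k hk0).2
  have P2 : ∀ k, ¬ (¬ Q k ∧ X k ∉ L) := by
    rintro k₀ ⟨h1, h2⟩
    have step : ∀ k, (¬ Q k ∧ X k ∉ L) → (¬ Q (k - 1) ∧ X (k - 1) ∉ L) := by
      rintro k ⟨hQ, hX⟩
      have hX' : X (k - 1) ∉ L := by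
        intro hc
        exact hQ (h10 k hc hX)
      refine ⟨?_, hX'⟩
      intro hc
      have := b2 (k - 1) hc (by rwa [sub_add_cancel])
      rw [this] at hX'
      exact hX' hU
    have hall := left_all step ⟨h1, h2⟩
    refine desc_left (fun k => r (X k)ᶜ) (m := min k₀ 0) (fun k hk => ?_)
    have hk0 : k ≤ k₀ := hk.trans (min_le_left _ _)
    have hk1 : k ≤ 0 := hk.trans (min_le_right _ _)
    exact l00 k hk1 (hall k hk0).1 (hall (k - 1) (by omega)).2 (hall k hk0).2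
  by_cases h0 : Q 0
  · have hall : ∀ k ≥ (0 : ℤ), Q k := by
      refine right_all (fun k hk => ?_) h0
      by_contra hc
      have := b2 k hk hc
      exact P1 k ⟨hk, by rw [this]; exact hU⟩
    have hnot : ∀ k ≥ (0 : ℤ), X k ∉ L := fun k hk hc => P1 k ⟨hall k hk, hc⟩
    refine desc_right (fun k => r (X k)ᶜ) (m := 0) (fun k hk => ?_)
    have := r00 (k + 1) (by omega) (hall _ (by omega))
      (by rw [add_sub_cancel_right]; exact hnot k hk) (hnot _ (by omega))
    rwa [add_sub_cancel_right] at this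
  · have hall : ∀ k ≥ (0 : ℤ), ¬ Q k := by
      refine right_all (P := fun k => ¬ Q k) (fun k hk hc => ?_) h0
      have := b1 k hk hc
      exact P2 k ⟨hk, by rw [this]; exact hE⟩
    have hmem : ∀ k ≥ (0 : ℤ), X k ∈ L := fun k hk => by
      by_contra hc
      exact P2 k ⟨hall k hk, hc⟩
    refine desc_right (fun k => r (X k)) (m := 0) (fun k hk => ?_)
    have := r11 (k + 1) (by omega) (hall _ (by omega))
      (by rw [add_sub_cancel_right]; exact hmem k hk) (hmem _ (by omega))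
    rwa [add_sub_cancel_right] at this

end Vale.Agent.Lib.P068.CH
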