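import Vale.Agent.Lib.P068.CH.Struct
import Vale.Agent.Lib.P068.CH.Core
import Vale.Agent.Lib.P068.Defs

namespace Vale.Agent.Lib.P068.CH

open Set

/-- The uniform matroid of rank one on two points. -/
def U12 : Matroid Bool :=
  Matroid.ofIsBaseOfFinite (E := univ) finite_univ (fun B => ∃ b, B = {b}) ⟨_, true, rfl⟩
    (by
      rintro X Y ⟨x, rfl⟩ ⟨y, rfl⟩ a ⟨ha, hay⟩
      obtain rfl : a = x := ha
      have hne : y ≠ a := fun h => hay h.symm
      refine ⟨y, ⟨rfl, hne⟩, y, ?_⟩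
      ext z
      simp)
    (fun _ _ => subset_univ _)

theorem U12_E : U12.E = univ := rfl

theorem U12_indep {I : Set Bool} : U12.Indep I ↔ ¬ (true ∈ I ∧ false ∈ I) := by
  rw [Matroid.indep_iff]
  constructor
  · rintro ⟨B, ⟨b, rfl⟩, hI⟩ ⟨h1, h2⟩
    have h3 := hI h1
    have h4 := hI h2
    simp only [mem_singleton_iff] at h3 h4
    rw [← h3] at h4
    exact absurd h4 (by simp)
  · intro h
    by_cases h1 : true ∈ I
    · refine ⟨{true}, ⟨true, rfl⟩, ?_⟩
      intro b hb
      cases b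
      · exact absurd ⟨h1, hb⟩ h
      · rfl
    · refine ⟨{false}, ⟨false, rfl⟩, ?_⟩
      intro b hb
      cases b
      · rfl
      · exact absurd hb h1

/-- The bijection from pair index and side to elements. -/
def pairEquiv : (ℤ × ℕ) × Bool ≃ ℤ × (Bool × ℕ) where
  toFun p := if p.2 then (p.1.1, (true, p.1.2)) else (p.1.1 + 1, (false, p.1.2))
  invFun x := if x.2.1 then ((x.1, x.2.2), true) else ((x.1 - 1, x.2.2), false)
  left_inv := by
    rintro ⟨⟨k, n⟩, b⟩
    cases b <;> simp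
  right_inv := by
    rintro ⟨k, b, n⟩
    cases b <;> simp

/-- The direct sum of the two-element circuits `(k, true, n), (k + 1, false, n)`. -/
def pairsMatroid : Matroid (ℤ × (Bool × ℕ)) :=
  (Matroid.sum' (fun _ : ℤ × ℕ => U12)).mapEquiv pairEquiv

theorem pairs_indep {S : Set (ℤ × (Bool × ℕ))} :
    pairsMatroid.Indep S ↔ ∀ k n, ¬ ((k, (true, n)) ∈ S ∧ (k + 1, (false, n)) ∈ S) := by
  rw [pairsMatroid, Matroid.mapEquiv_indep_iff, Matroid.sum'_indep_iff]
  have key : ∀ (i : ℤ × ℕ) (b : Bool), b ∈ Prod.mk i ⁻¹' (pairEquiv.symm '' S) ↔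
      pairEquiv (i, b) ∈ S := by
    intro i b
    simp only [mem_preimage, Equiv.image_symm_eq_preimage]
  constructor
  · intro h k n
    have h1 := U12_indep.1 (h (k, n))
    rw [key, key] at h1
    simpa [pairEquiv] using h1
  · rintro h ⟨k, n⟩
    rw [U12_indep, key, key]
    simpa [pairEquiv] using h k n

theorem pairs_ground : pairsMatroid.E = univ := by
  rw [pairsMatroid, Matroid.mapEquiv_ground_eq, Matroid.sum'_ground_eq]
  ext x
  simp only [mem_image, mem_iUnion, mem_univ, iff_true]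
  refine ⟨pairEquiv.symm x, ?_, by simp⟩
  exact ⟨(pairEquiv.symm x).1, (pairEquiv.symm x).2, by rw [U12_E]; exact mem_univ _, rfl⟩

/-- Swap of the two sides. -/
def swapB : Bool × ℕ ≃ Bool × ℕ := Equiv.prodCongr Equiv.boolNot (Equiv.refl ℕ)

theorem swap_image (C X : Set ℕ) : swapB.symm '' glue C X = glue X C := by
  ext ⟨b, n⟩
  rw [Equiv.image_symm_eq_preimage]
  cases b <;> simp [swapB]

/-- The blocks of the chain: the matroid `U` for non-positive indices, its swap otherwise. -/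
noncomputable def Us (U : Matroid (Bool × ℕ)) (k : ℤ) : Matroid (Bool × ℕ) :=
  if k ≤ 0 then U else U.mapEquiv swapB

theorem Us_E {U : Matroid (Bool × ℕ)} (hE : U.E = univ) (k : ℤ) : (Us U k).E = univ := by
  unfold Us
  split_ifs
  · exact hE
  · rw [Matroid.mapEquiv_ground_eq, hE]
    simp

theorem Us_dich {U : Matroid (Bool × ℕ)} (hd : ∀ S, U.Indep S ∨ ∃ B, U.IsBase B ∧ B ⊆ S) (k : ℤ)
    (S : Set (Bool × ℕ)) : (Us U k).Indep S ∨ ∃ B, (Us U k).IsBase B ∧ B ⊆ S := by
  unfold Us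
  split_ifs
  · exact hd S
  · rcases hd (swapB.symm '' S) with h | ⟨B, hB, hBS⟩
    · exact Or.inl (Matroid.mapEquiv_indep_iff.2 h)
    · refine Or.inr ⟨swapB '' B, Matroid.mapEquiv_isBase_iff.2 ?_, ?_⟩
      · rwa [Equiv.symm_image_image]
      · rintro _ ⟨x, hx, rfl⟩
        obtain ⟨y, hy, rfl⟩ := hBS hx
        simpa using hy

theorem Us_indep_pos {U : Matroid (Bool × ℕ)} {k : ℤ} (hk : 1 ≤ k) {C X : Set ℕ}
    (h : (Us U k).Indep (glue C X)) : U.Indep (glue X C) := by
  have hk' : ¬ k ≤ 0 := by omega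
  simp only [Us, if_neg hk'] at h
  rw [Matroid.mapEquiv_indep_iff, swap_image] at h
  exact h

theorem Us_span_pos {U : Matroid (Bool × ℕ)} {k : ℤ} (hk : 1 ≤ k) {C X : Set ℕ}
    (h : ∃ B, (Us U k).IsBase B ∧ B ⊆ glue C X) : ∃ B, U.IsBase B ∧ B ⊆ glue X C := by
  have hk' : ¬ k ≤ 0 := by omega
  simp only [Us, if_neg hk'] at h
  obtain ⟨B, hB, hBS⟩ := h
  rw [Matroid.mapEquiv_isBase_iff] at hB
  refine ⟨_, hB, ?_⟩
  rw [← swap_image]
  exact image_mono hBS

theorem Us_indep_neg {U : Matroid (Bool × ℕ)} {k : ℤ} (hk : k ≤ 0) {S : Set (Bool × ℕ)}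
    (h : (Us U k).Indep S) : U.Indep S := by
  simpa only [Us, if_pos hk] using h

theorem Us_span_neg {U : Matroid (Bool × ℕ)} {k : ℤ} (hk : k ≤ 0) {S : Set (Bool × ℕ)}
    (h : ∃ B, (Us U k).IsBase B ∧ B ⊆ S) : ∃ B, U.IsBase B ∧ B ⊆ S := by
  simpa only [Us, if_pos hk] using h

/-- In a matroid where every set is independent or contains a base, the closure of a set without
a base is the set itself. -/
theorem closure_subset_of_not_span {W : Matroid (Bool × ℕ)} (hWE : W.E = univ)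
    (hd : ∀ S, W.Indep S ∨ ∃ B, W.IsBase B ∧ B ⊆ S) {S : Set (Bool × ℕ)}
    (hS : ¬ ∃ B, W.IsBase B ∧ B ⊆ S) : W.closure S ⊆ S := by
  have hI : W.Indep S := (hd S).resolve_right hS
  intro e he
  by_contra heS
  have hns : ¬ W.Indep (Insert.insert e S) := by
    intro hins
    have := (hI.insert_indep_iff_of_notMem heS).1 hins
    exact this.2 he
  obtain ⟨B, hB, hBS⟩ := (hd _).resolve_left hns
  have hsub : Insert.insert e S ⊆ W.closure S := by
    refine insert_subset he ?_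
    exact W.subset_closure S (by rw [hWE]; exact subset_univ _)
  have hcl : W.closure B ⊆ W.closure S :=
    W.closure_subset_closure_of_subset_closure (hBS.trans hsub)
  rw [hB.closure_eq] at hcl
  exact hS ⟨S, hI.isBase_of_ground_subset_closure hcl, subset_rfl⟩

section
variable {L : Set (Set ℕ)} {r : Set ℕ → Ordinal.{0}} {U : Matroid (Bool × ℕ)}

theorem chain_main (hUE : U.E = univ) (hd : ∀ S, U.Indep S ∨ ∃ B, U.IsBase B ∧ B ⊆ S)
    (hE : ∅ ∉ L) (hU : univ ∈ L) (hsd : ∀ Z, Z ∈ L ↔ Zᶜ ∉ L)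
    (hi : ∀ C X, C ∈ L → X ∈ L → ¬ U.Indep (glue C X))
    (hii : ∀ C X, C ∉ L → X ∉ L → ¬ ∃ B, U.IsBase B ∧ B ⊆ glue C X)
    (hiii : ∀ C X, C ∉ L → X ∈ L → r X ≤ r Cᶜ → ¬ U.Indep (glue C X))
    (hiv : ∀ C X, C ∈ L → X ∉ L → r Xᶜ ≤ r C → ¬ ∃ B, U.IsBase B ∧ B ⊆ glue C X) :
    ¬ SatisfiesIntersection (Matroid.sum' (Us U)) pairsMatroid := by
  rintro ⟨JM, JN, hIM, hIN, hdisj, hcov⟩
  have hME : (Matroid.sum' (Us U)).E = univ := by
    rw [Matroid.sum'_ground_eq]
    ext ⟨k, x⟩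
    simp only [mem_iUnion, mem_univ, iff_true]
    exact ⟨k, x, by rw [Us_E hUE]; exact mem_univ _, rfl⟩
  let J := JM ∪ JN
  have hJM : ∀ x, x ∈ JM → x ∈ J := fun x hx => Or.inl hx
  have hJN : ∀ x, x ∈ JN → x ∈ J := fun x hx => Or.inr hx
  let Q : ℤ → Prop := fun k => ¬ ∃ B, (Us U k).IsBase B ∧ B ⊆ Prod.mk k ⁻¹' JM
  let X : ℤ → Set ℕ := fun k => {n | (k, (true, n)) ∈ J}
  have hJk : ∀ k, (Us U k).Indep (Prod.mk k ⁻¹' J) := Matroid.sum'_indep_iff.1 hIM
  have hJMk : ∀ k, (Us U k).Indep (Prod.mk k ⁻¹' JM) :=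
    fun k => (hJk k).subset (preimage_mono subset_union_left)
  have hJMi : (Matroid.sum' (Us U)).Indep JM := hIM.subset subset_union_left
  have hJNi : pairsMatroid.Indep JN := hIN.subset subset_union_right
  have pe : ∀ k n, ¬ ((k, (true, n)) ∈ J ∧ (k + 1, (false, n)) ∈ J) := pairs_indep.1 hIN
  have peN : ∀ k n, ¬ ((k, (true, n)) ∈ JN ∧ (k + 1, (false, n)) ∈ JN) := pairs_indep.1 hJNi
  have clM : ∀ k x, Q k → (k, x) ∈ (Matroid.sum' (Us U)).closure JM → (k, x) ∈ JM := by
    intro k x hQ hcl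
    by_contra hnot
    have h1 : x ∉ Prod.mk k ⁻¹' JM := hnot
    have h2 : x ∉ (Us U k).closure (Prod.mk k ⁻¹' JM) := fun hx =>
      h1 (closure_subset_of_not_span (Us_E hUE k) (Us_dich hd k) hQ hx)
    have h3 : (Us U k).Indep (Insert.insert x (Prod.mk k ⁻¹' JM)) :=
      ((hJMk k).insert_indep_iff_of_notMem h1).2 ⟨by rw [Us_E hUE]; exact mem_univ _, h2⟩
    have h4 : (Matroid.sum' (Us U)).Indep (Insert.insert (k, x) JM) := by
      rw [Matroid.sum'_indep_iff]
      intro i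
      by_cases hik : i = k
      · subst hik
        convert h3 using 1
        ext y
        simp
      · convert hJMk i using 1
        ext y
        simp [hik]
    have h5 := (hJMi.insert_indep_iff_of_notMem hnot).1 h4
    exact h5.2 hcl
  have clNt : ∀ k n, (k, (true, n)) ∈ pairsMatroid.closure JN →
      (k, (true, n)) ∈ JN ∨ (k + 1, (false, n)) ∈ JN := by
    intro k n hcl
    by_contra hnot
    push Not at hnot
    have h1 : pairsMatroid.Indep (Insert.insert (k, (true, n)) JN) := by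
      rw [pairs_indep]
      rintro k' n' ⟨h2, h3⟩
      have h3' : (k' + 1, (false, n')) ∈ JN := by
        rcases h3 with h3 | h3
        · simp at h3
        · exact h3
      rcases h2 with h2 | h2
      · simp only [Prod.mk.injEq, true_and] at h2
        obtain ⟨rfl, rfl⟩ := h2
        exact hnot.2 h3'
      · exact peN k' n' ⟨h2, h3'⟩
    have h5 := (hJNi.insert_indep_iff_of_notMem hnot.1).1 h1
    exact h5.2 hcl
  have clNf : ∀ k n, (k + 1, (false, n)) ∈ pairsMatroid.closure JN →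
      (k + 1, (false, n)) ∈ JN ∨ (k, (true, n)) ∈ JN := by
    intro k n hcl
    by_contra hnot
    push Not at hnot
    have h1 : pairsMatroid.Indep (Insert.insert (k + 1, (false, n)) JN) := by
      rw [pairs_indep]
      rintro k' n' ⟨h2, h3⟩
      have h2' : (k', (true, n')) ∈ JN := by
        rcases h2 with h2 | h2
        · simp at h2
        · exact h2
      rcases h3 with h3 | h3
      · simp only [Prod.mk.injEq, add_left_inj, true_and] at h3
        obtain ⟨rfl, rfl⟩ := h3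
        exact hnot.2 h2'
      · exact peN k' n' ⟨h2', h3⟩
    have h5 := (hJNi.insert_indep_iff_of_notMem hnot.1).1 h1
    exact h5.2 hcl
  have hcovx : ∀ e, e ∈ (Matroid.sum' (Us U)).closure JM ∨ e ∈ pairsMatroid.closure JN := by
    intro e
    have : e ∈ (Matroid.sum' (Us U)).closure JM ∪ pairsMatroid.closure JN := by
      rw [hcov, hME]; exact mem_univ _
    exact this
  have covA : ∀ k n, Q k → (k, (true, n)) ∈ JM ∨ (k, (true, n)) ∈ JN ∨
      (k + 1, (false, n)) ∈ JN := by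
    intro k n hQ
    rcases hcovx (k, (true, n)) with h | h
    · exact Or.inl (clM k _ hQ h)
    · exact Or.inr (clNt k n h)
  have covB : ∀ k n, Q (k + 1) → (k + 1, (false, n)) ∈ JM ∨ (k + 1, (false, n)) ∈ JN ∨
      (k, (true, n)) ∈ JN := by
    intro k n hQ
    rcases hcovx (k + 1, (false, n)) with h | h
    · exact Or.inl (clM (k + 1) _ hQ h)
    · exact Or.inr (clNf k n h)
  have hR : ∀ k x, ¬ Q k → (k, x) ∈ J → (k, x) ∈ JM := by
    intro k x hQ hx
    have hQ' : ∃ B, (Us U k).IsBase B ∧ B ⊆ Prod.mk k ⁻¹' JM := not_not.1 hQ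
    obtain ⟨B, hB, hBS⟩ := hQ'
    have hBJ : B ⊆ Prod.mk k ⁻¹' J := hBS.trans (preimage_mono subset_union_left)
    have := hB.eq_of_subset_indep (hJk k) hBJ
    have hxB : x ∈ B := by rw [this]; exact hx
    exact hBS hxB
  have hnotboth : ∀ e, e ∈ JM → e ∈ JN → False := fun e h1 h2 =>
    (Set.disjoint_left.1 hdisj) h1 h2
  have b1 : ∀ k, ¬ Q k → Q (k + 1) → X k = ∅ := by
    intro k h1 h2
    ext n
    simp only [mem_empty_iff_false, iff_false]
    intro hn
    have ha : (k, (true, n)) ∈ J := hn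
    have haM := hR k _ h1 ha
    have hb : (k + 1, (false, n)) ∉ J := fun hb => pe k n ⟨ha, hb⟩
    rcases covB k n h2 with h | h | h
    · exact hb (hJM _ h)
    · exact hb (hJN _ h)
    · exact hnotboth _ haM h
  have b2 : ∀ k, Q k → ¬ Q (k + 1) → X k = univ := by
    intro k h1 h2
    ext n
    simp only [mem_univ, iff_true]
    by_contra ha
    have ha' : (k, (true, n)) ∉ J := ha
    rcases covA k n h1 with h | h | h
    · exact ha' (hJM _ h)
    · exact ha' (hJN _ h)
    · have hbM := hR (k + 1) _ h2 (hJN _ h)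
      exact hnotboth _ hbM h
  let S' : ℤ → Set (Bool × ℕ) := fun k => glue (X (k - 1))ᶜ (X k)
  have hpe' : ∀ k n, (k, (false, n)) ∈ J → n ∉ X (k - 1) := by
    intro k n h1 h2
    have h3 : (k - 1, (true, n)) ∈ J := h2
    have := pe (k - 1) n
    rw [sub_add_cancel] at this
    exact this ⟨h3, h1⟩
  have hQind : ∀ k, Q k → (Us U k).Indep (S' k) := by
    intro k hQ
    convert hJk k using 1
    ext ⟨b, n⟩
    cases b
    · simp only [S', mem_glue_false, mem_compl_iff, mem_preimage]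
      constructor
      · intro hn
        have hQ' : Q (k - 1 + 1) := by rwa [sub_add_cancel]
        have h0 := covB (k - 1) n hQ'
        rw [sub_add_cancel] at h0
        rcases h0 with h | h | h
        · exact hJM _ h
        · exact hJN _ h
        · exact absurd (hJN _ h) hn
      · exact hpe' k n
    · simp only [S', mem_glue_true, mem_preimage]
      rfl
  have hRsp : ∀ k, ¬ Q k → ∃ B, (Us U k).IsBase B ∧ B ⊆ S' k := by
    intro k hQ
    obtain ⟨B, hB, hBS⟩ := not_not.1 hQ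
    refine ⟨B, hB, hBS.trans ?_⟩
    rintro ⟨b, n⟩ hx
    have hx' : (k, (b, n)) ∈ J := hJM _ hx
    cases b
    · exact mem_glue_false.2 (hpe' k n hx')
    · exact mem_glue_true.2 hx'
  have hcomp : ∀ Z, Zᶜ ∈ L ↔ Z ∉ L := by
    intro Z
    have := hsd Zᶜ
    rwa [compl_compl] at this
  refine no_sequence (L := L) (r := r) hE hU X Q b1 b2 ?_ ?_ ?_ ?_ ?_ ?_
  · intro k h1 h2 hQ
    have hC := (hcomp _).2 h1
    have hI := hQind k hQ
    by_cases hk : k ≤ 0
    · exact hi _ _ hC h2 (Us_indep_neg hk hI)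
    · exact hi _ _ h2 hC (Us_indep_pos (by omega) hI)
  · intro k h1 h2
    by_contra hQ
    have hC : (X (k - 1))ᶜ ∉ L := fun h => (hcomp _).1 h h1
    have hS := hRsp k (fun h => h hQ)
    by_cases hk : k ≤ 0
    · exact hii _ _ hC h2 (Us_span_neg hk hS)
    · exact hii _ _ h2 hC (Us_span_pos (by omega) hS)
  · intro k hk hQ h1 h2
    by_contra hlt
    have hC : (X (k - 1))ᶜ ∉ L := fun h => (hcomp _).1 h h1
    refine hiii _ _ hC h2 ?_ (Us_indep_neg hk (hQind k hQ))
    rw [compl_compl]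
    exact not_lt.1 hlt
  · intro k hk hQ h1 h2
    by_contra hlt
    have hC := (hcomp _).2 h1
    exact hiv _ _ hC h2 (not_lt.1 hlt) (Us_span_neg hk (hRsp k hQ))
  · intro k hk hQ h1 h2
    by_contra hlt
    have hC : (X (k - 1))ᶜ ∉ L := fun h => (hcomp _).1 h h1
    refine hiv _ _ h2 hC ?_ (Us_span_pos hk (hRsp k hQ))
    rw [compl_compl]
    exact not_lt.1 hlt
  · intro k hk hQ h1 h2
    by_contra hlt
    have hC := (hcomp _).2 h1
    exact hiii _ _ h2 hC (not_lt.1 hlt) (Us_indep_pos hk (hQind k hQ))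

end

/-- Under the continuum hypothesis the intersection conjecture fails for a direct sum of uniform
matroids paired with a direct sum of two-element circuits. -/
theorem exists_counterexample (hCH : Cardinal.aleph.{0} 1 = Cardinal.continuum.{0}) :
    ∃ (Us : ℤ → Matroid (Bool × ℕ)) (N : Matroid (ℤ × Bool × ℕ)),
      (∀ k, (Us k).E = univ ∧ ∀ S, (Us k).Indep S ∨ (Us k).Spanning S) ∧
      N.E = univ ∧
      (∀ S, N.Indep S ↔ ∀ k n, ¬ ((k, true, n) ∈ S ∧ (k + 1, false, n) ∈ S)) ∧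
      (Matroid.sum' Us).E = univ ∧
      ¬ SatisfiesIntersection (Matroid.sum' Us) N := by
  obtain ⟨L, r, U, hUE, hd, hE, hU, hsd, hi, hii, hiii, hiv⟩ := exists_structure hCH
  refine ⟨Us U, pairsMatroid, ?_, pairs_ground, fun S => pairs_indep, ?_,
    chain_main hUE hd hE hU hsd hi hii hiii hiv⟩
  · intro k
    refine ⟨Us_E hUE k, fun S => ?_⟩
    rcases Us_dich hd k S with h | ⟨B, hB, hBS⟩
    · exact Or.inl h
    · refine Or.inr ?_
      rw [Matroid.spanning_iff]
      exact ⟨hB.closure_of_superset hBS, by rw [Us_E hUE k]; exact subset_univ _⟩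
  · rw [Matroid.sum'_ground_eq]
    ext ⟨k, x⟩
    simp only [mem_iUnion, mem_univ, iff_true]
    exact ⟨k, x, by rw [Us_E hUE]; exact mem_univ _, rfl⟩

end Vale.Agent.Lib.P068.CH
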