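import Mathlib

namespace Vale.Agent.Lib.P068.CH

open Set

/-- Transfinite recursion through countably closed preorders: if every countable chain of `P` has
an upper bound and all `D i` are dense, then a monotone `f` with `f i ∈ D i` exists, provided all
initial segments of the well-ordered index set are countable. -/
theorem exists_generic {P : Type*} [Preorder P] [Nonempty P]
    (ub : ∀ s : Set P, s.Countable → IsChain (· ≤ ·) s → ∃ u, ∀ x ∈ s, x ≤ u)
    {ι : Type*} [LinearOrder ι] [WellFoundedLT ι] (hι : ∀ i : ι, (Set.Iio i).Countable)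
    (D : ι → P → Prop) (hD : ∀ i p, ∃ q, p ≤ q ∧ D i q) :
    ∃ f : ι → P, (∀ i j, i < j → f i ≤ f j) ∧ ∀ i, D i (f i) := by
  classical
  let pick : ι → P → P := fun i p => Classical.choose (hD i p)
  have hpick : ∀ i p, p ≤ pick i p ∧ D i (pick i p) := fun i p => Classical.choose_spec (hD i p)
  let F : ∀ i : ι, (∀ j : ι, j < i → P) → P := fun i ih =>
    if h : ∃ u, ∀ j (hj : j < i), ih j hj ≤ u then pick i (Classical.choose h)
    else pick i (Classical.arbitrary P)
  let f : ι → P := (wellFounded_lt (α := ι)).fix F
  have hf : ∀ i, f i = F i (fun j _ => f j) := fun i => (wellFounded_lt (α := ι)).fix_eq F i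
  have key : ∀ i, (∀ j, j < i → f j ≤ f i) ∧ D i (f i) := by
    intro i
    induction i using (wellFounded_lt (α := ι)).induction with
    | _ i ih =>
      have hchain : IsChain (· ≤ ·) (f '' Iio i) := by
        rintro _ ⟨j, hj, rfl⟩ _ ⟨k, hk, rfl⟩ hne
        rcases lt_trichotomy j k with hjk | rfl | hjk
        · exact Or.inl ((ih k hk).1 j hjk)
        · exact absurd rfl hne
        · exact Or.inr ((ih j hj).1 k hjk)
      obtain ⟨u, hu⟩ := ub _ ((hι i).image f) hchain
      have hex : ∃ u, ∀ j (hj : j < i), (fun j (_ : j < i) => f j) j hj ≤ u :=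
        ⟨u, fun j hj => hu _ ⟨j, hj, rfl⟩⟩
      have hfi : f i = pick i (Classical.choose hex) := by
        rw [hf i]
        simp only [F]
        rw [dif_pos hex]
      constructor
      · intro j hj
        rw [hfi]
        exact le_trans (Classical.choose_spec hex j hj) (hpick i _).1
      · rw [hfi]
        exact (hpick i _).2
  exact ⟨f, fun i j hij => (key j).1 i hij, fun i => (key i).2⟩

end Vale.Agent.Lib.P068.CH
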