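import Vale.Agent.Lib.P068.CH.Ops
import Vale.Agent.Lib.P068.CH.RS

namespace Vale.Agent.Lib.P068.CH

open Set

/-- A pair of sets is a free pair for `R`: one part large, the other small, and the rank of the
complement of the small part is below the rank of the large part. -/
def Free (R : Set (Set ℕ × Rk)) (g : Set ℕ × Set ℕ) : Prop :=
  (∃ x y, (g.1ᶜ, x) ∈ R ∧ (g.2, y) ∈ R ∧ x < y) ∨ (∃ x y, (g.1, x) ∈ R ∧ (g.2ᶜ, y) ∈ R ∧ x < y)

theorem Free.mono {R R' : Set (Set ℕ × Rk)} (h : R ⊆ R') {g : Set ℕ × Set ℕ} (hg : Free R g) :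
    Free R' g := by
  rcases hg with ⟨x, y, h1, h2, h3⟩ | ⟨x, y, h1, h2, h3⟩
  · exact Or.inl ⟨x, y, h h1, h h2, h3⟩
  · exact Or.inr ⟨x, y, h h1, h h2, h3⟩

/-- Inclusion of pairs modulo finite sets. -/
def ASub (g h : Set ℕ × Set ℕ) : Prop := (g.1 \ h.1).Finite ∧ (g.2 \ h.2).Finite

/-- Approximations to the final rank relation and the family of generators. -/
structure Cond where
  R : Set (Set ℕ × Rk)
  G : Set (Set ℕ × Set ℕ)
  valid : ValidR R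
  Gc : G.Countable
  free : ∀ g ∈ G, Free R g
  anti : ∀ g ∈ G, ∀ h ∈ G, ASub g h → g = h

instance : Preorder Cond where
  le p q := p.R ⊆ q.R ∧ p.G ⊆ q.G
  le_refl _ := ⟨subset_rfl, subset_rfl⟩
  le_trans _ _ _ h1 h2 := ⟨h1.1.trans h2.1, h1.2.trans h2.2⟩

theorem Cond.le_def {p q : Cond} : p ≤ q ↔ p.R ⊆ q.R ∧ p.G ⊆ q.G := Iff.rfl

instance : Nonempty Cond := ⟨⟨∅, ∅, ⟨countable_empty, by simp, by simp⟩, countable_empty,
  by simp, by simp⟩⟩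

/-- Upper bounds of countable chains. -/
theorem Cond.ub (s : Set Cond) (hs : s.Countable) (hc : IsChain (· ≤ ·) s) :
    ∃ u, ∀ x ∈ s, x ≤ u := by
  have joint : ∀ p ∈ s, ∀ q ∈ s, ∃ r ∈ s, p ≤ r ∧ q ≤ r := by
    intro p hp q hq
    by_cases hpq : p = q
    · subst hpq; exact ⟨p, hp, le_rfl, le_rfl⟩
    · rcases hc hp hq hpq with h | h
      · exact ⟨q, hq, h, le_rfl⟩
      · exact ⟨p, hp, le_rfl, h⟩
  refine ⟨⟨⋃ p ∈ s, p.R, ⋃ p ∈ s, p.G, ⟨?_, ?_, ?_⟩, ?_, ?_, ?_⟩, ?_⟩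
  · exact hs.biUnion (fun p _ => p.valid.count)
  · intro x hx y hy
    simp only [mem_iUnion, exists_prop] at hx hy
    obtain ⟨p, hp, hxp⟩ := hx
    obtain ⟨q, hq, hyq⟩ := hy
    obtain ⟨r, -, hpr, hqr⟩ := joint p hp q hq
    exact r.valid.link x (hpr.1 hxp) y (hqr.1 hyq)
  · intro x hx y hy
    simp only [mem_iUnion, exists_prop] at hx hy
    obtain ⟨p, hp, hxp⟩ := hx
    obtain ⟨q, hq, hyq⟩ := hy
    obtain ⟨r, -, hpr, hqr⟩ := joint p hp q hq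
    exact r.valid.mono x (hpr.1 hxp) y (hqr.1 hyq)
  · exact hs.biUnion (fun p _ => p.Gc)
  · intro g hg
    simp only [mem_iUnion, exists_prop] at hg
    obtain ⟨p, hp, hgp⟩ := hg
    exact (p.free g hgp).mono (subset_biUnion_of_mem (u := fun p : Cond => p.R) hp)
  · intro g hg h hh
    simp only [mem_iUnion, exists_prop] at hg hh
    obtain ⟨p, hp, hgp⟩ := hg
    obtain ⟨q, hq, hhq⟩ := hh
    obtain ⟨r, -, hpr, hqr⟩ := joint p hp q hq
    exact r.anti g (hpr.2 hgp) h (hqr.2 hhq)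
  · intro p hp
    exact ⟨subset_biUnion_of_mem (u := fun p : Cond => p.R) hp,
      subset_biUnion_of_mem (u := fun p : Cond => p.G) hp⟩

/-- `Z` is decided by `R`: it or its complement is large. -/
def Decided (R : Set (Set ℕ × Rk)) (Z : Set ℕ) : Prop := (∃ x, (Z, x) ∈ R) ∨ (∃ x, (Zᶜ, x) ∈ R)

theorem Decided.mono {R R' : Set (Set ℕ × Rk)} (h : R ⊆ R') {Z : Set ℕ} (hZ : Decided R Z) :
    Decided R' Z := by
  rcases hZ with ⟨x, hx⟩ | ⟨x, hx⟩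
  · exact Or.inl ⟨x, h hx⟩
  · exact Or.inr ⟨x, h hx⟩

/-- Replace the rank relation of a condition by a larger valid one. -/
def Cond.withR (p : Cond) (R' : Set (Set ℕ × Rk)) (h : p.R ⊆ R') (hV : ValidR R') : Cond :=
  ⟨R', p.G, hV, p.Gc, fun g hg => (p.free g hg).mono h, p.anti⟩

theorem exists_decide (p : Cond) (Z : Set ℕ) : ∃ q, p ≤ q ∧ Decided q.R Z := by
  by_cases hA : Z.Infinite ∧ ∀ r ∈ p.R, (Z ∩ r.1).Infinite
  · obtain ⟨σ, hσ⟩ := op_decide p.valid hA.1 hA.2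
    exact ⟨p.withR _ (subset_insert _ _) hσ, ⟨subset_insert _ _, subset_rfl⟩,
      Or.inl ⟨σ, mem_insert _ _⟩⟩
  · have hB : Zᶜ.Infinite ∧ ∀ r ∈ p.R, (Zᶜ ∩ r.1).Infinite := by
      have hl : ∀ r ∈ p.R, (Zᶜ ∩ r.1).Infinite := by
        intro r hr
        rw [not_and_or] at hA
        rcases hA with hf | h
        · have hZf : Z.Finite := not_infinite.1 hf
          have hri : r.1.Infinite := (p.valid.link r hr r hr).mono inter_subset_left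
          refine inf_left (C := Z) hri ?_ hZf
          intro x hx
          by_cases hxZ : x ∈ Z
          · exact Or.inr hxZ
          · exact Or.inl ⟨hxZ, hx⟩
        · push Not at h
          obtain ⟨r₀, hr₀, hf⟩ := h
          have h0 := p.valid.link r hr r₀ hr₀
          refine inf_left (C := Z ∩ r₀.1) h0 ?_ hf
          rintro x ⟨hx1, hx2⟩
          by_cases hxZ : x ∈ Z
          · exact Or.inr ⟨hxZ, hx2⟩
          · exact Or.inl ⟨hxZ, hx1⟩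
      refine ⟨?_, hl⟩
      rw [not_and_or] at hA
      rcases hA with hf | h
      · exact (not_infinite.1 hf).infinite_compl
      · push Not at h
        obtain ⟨r₀, hr₀, hf⟩ := h
        have h0 := hl r₀ hr₀
        exact h0.mono inter_subset_left
    obtain ⟨σ, hσ⟩ := op_decide p.valid hB.1 hB.2
    exact ⟨p.withR _ (subset_insert _ _) hσ, ⟨subset_insert _ _, subset_rfl⟩,
      Or.inr ⟨σ, mem_insert _ _⟩⟩

/-- Choice of a generic set in the interval from `a` to `b`. -/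
theorem exists_c {R : Set (Set ℕ × Rk)} (hR : R.Countable) {G : Set (Set ℕ × Set ℕ)}
    (hG : G.Countable) (π : Set ℕ × Set ℕ → Set ℕ) {a b : Set ℕ} (hab : a ⊆ b) :
    ∃ c, a ⊆ c ∧ c ⊆ b ∧ SplitsAll R a b c ∧
      ∀ g ∈ G, Splits c ((b \ a) ∩ π g) ∧ Splits c ((b \ a) \ π g) := by
  set W := b \ a with hW
  let F : Set (Set ℕ) := (fun p : Set ℕ × Rk => p.1 ∩ W) '' R ∪ (fun p : Set ℕ × Rk => W \ p.1) '' R
    ∪ ((fun g => W ∩ π g) '' G ∪ (fun g => W \ π g) '' G)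
  have hF : F.Countable := ((hR.image _).union (hR.image _)).union ((hG.image _).union (hG.image _))
  obtain ⟨q, hq⟩ := exists_splitter F hF
  have key : ∀ S ∈ F, S ⊆ W → Splits (a ∪ (q ∩ W)) S := by
    intro S hS hSW hinf
    obtain ⟨h1, h2⟩ := hq S hS hinf
    constructor
    · exact h1.mono (fun x hx => ⟨hx.1, Or.inr ⟨hx.2, hSW hx.1⟩⟩)
    · refine h2.mono (fun x hx => ⟨hx.1, ?_⟩)
      rintro (hxa | hxq)
      · exact (hSW hx.1).2 hxa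
      · exact hx.2 hxq.1
  refine ⟨a ∪ (q ∩ W), subset_union_left, union_subset hab (fun x hx => hx.2.1), ?_, ?_⟩
  · intro p hp
    constructor
    · exact key _ (Or.inl (Or.inl ⟨p, hp, rfl⟩)) inter_subset_right
    · exact key _ (Or.inl (Or.inr ⟨p, hp, rfl⟩)) sdiff_subset
  · intro g hg
    constructor
    · exact key _ (Or.inr (Or.inl ⟨g, hg, rfl⟩)) inter_subset_left
    · exact key _ (Or.inr (Or.inr ⟨g, hg, rfl⟩)) sdiff_subset

/-- One coordinate of the incomparability argument: a generic `c` does not almost contain `x` if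
`x \ a` is infinite. -/
theorem not_fin_of_splits_left {a b c x : Set ℕ} (hcb : c ⊆ b)
    (hs : Splits c ((b \ a) ∩ x)) (hx : (x \ a).Infinite) : ¬ (x \ c).Finite := by
  intro hf
  have hW : ((b \ a) ∩ x).Infinite := by
    refine inf_left (C := x \ c) hx ?_ hf
    rintro y ⟨hyx, hya⟩
    by_cases hyb : y ∈ b
    · exact Or.inl ⟨⟨hyb, hya⟩, hyx⟩
    · exact Or.inr ⟨hyx, fun hyc => hyb (hcb hyc)⟩
  exact (hs hW).2 (hf.subset (fun y hy => ⟨hy.1.2, hy.2⟩))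

/-- One coordinate of the incomparability argument: `c` is not almost contained in `x` if
`b \ x` is infinite. -/
theorem not_fin_of_splits_right {a b c x : Set ℕ} (hac : a ⊆ c)
    (hs : Splits c ((b \ a) \ x)) (hx : (b \ x).Infinite) : ¬ (c \ x).Finite := by
  intro hf
  have hW : ((b \ a) \ x).Infinite := by
    refine inf_left (C := c \ x) hx ?_ hf
    rintro y ⟨hyb, hyx⟩
    by_cases hya : y ∈ a
    · exact Or.inr ⟨hac hya, hyx⟩
    · exact Or.inl ⟨⟨hyb, hya⟩, hyx⟩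
  exact (hs hW).1 (hf.subset (fun y hy => ⟨hy.2, hy.1.2⟩))

/-- Add a new generator between `I` and `T`, given the generic choices. -/
theorem add_gen (p : Cond) (I T : Set ℕ × Set ℕ)
    (hT : ∀ g ∈ p.G, ¬ ASub T g) (hI : ∀ g ∈ p.G, ¬ ASub g I)
    {c₁ c₂ : Set ℕ} (h1 : I.1 ⊆ c₁) (h2 : c₁ ⊆ T.1) (h3 : I.2 ⊆ c₂) (h4 : c₂ ⊆ T.2)
    (s₁ : ∀ g ∈ p.G, Splits c₁ ((T.1 \ I.1) ∩ g.1) ∧ Splits c₁ ((T.1 \ I.1) \ g.1))
    (s₂ : ∀ g ∈ p.G, Splits c₂ ((T.2 \ I.2) ∩ g.2) ∧ Splits c₂ ((T.2 \ I.2) \ g.2))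
    {R' : Set (Set ℕ × Rk)} (hR' : p.R ⊆ R') (hV : ValidR R') (hF : Free R' (c₁, c₂)) :
    ∃ q, p ≤ q ∧ (c₁, c₂) ∈ q.G := by
  have hnot1 : ∀ g ∈ p.G, ¬ ASub g (c₁, c₂) := by
    rintro g hg ⟨hf1, hf2⟩
    apply hI g hg
    constructor
    · by_contra hinf
      exact not_fin_of_splits_left h2 (s₁ g hg).1 hinf hf1
    · by_contra hinf
      exact not_fin_of_splits_left h4 (s₂ g hg).1 hinf hf2
  have hnot2 : ∀ g ∈ p.G, ¬ ASub (c₁, c₂) g := by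
    rintro g hg ⟨hf1, hf2⟩
    apply hT g hg
    constructor
    · by_contra hinf
      exact not_fin_of_splits_right h1 (s₁ g hg).2 hinf hf1
    · by_contra hinf
      exact not_fin_of_splits_right h3 (s₂ g hg).2 hinf hf2
  refine ⟨⟨R', Insert.insert (c₁, c₂) p.G, hV, p.Gc.insert _, ?_, ?_⟩,
    ⟨hR', subset_insert _ _⟩, mem_insert _ _⟩
  · rintro g (rfl | hg)
    · exact hF
    · exact (p.free g hg).mono hR'
  · rintro g (rfl | hg) h (rfl | hh) hsub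
    · rfl
    · exact absurd hsub (hnot2 h hh)
    · exact absurd hsub (hnot1 g hg)
    · exact p.anti g hg h hh hsub

/-- The two-step construction of a generator `(c₁, c₂)` between `I` and `T`, given the recipes
for the new items of the rank relation. -/
theorem two_step (p : Cond) (I T : Set ℕ × Set ℕ) (h₁ : I.1 ⊆ T.1) (h₂ : I.2 ⊆ T.2)
    (hT : ∀ g ∈ p.G, ¬ ASub T g) (hI : ∀ g ∈ p.G, ¬ ASub g I)
    (iL iR : Set ℕ → Set ℕ × Rk)
    (VL : ∀ c, I.1 ⊆ c → c ⊆ T.1 → SplitsAll p.R I.1 T.1 c →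
      ValidR (Insert.insert (iL c) p.R))
    (VR : ∀ c₁ c, ValidR (Insert.insert (iL c₁) p.R) → I.2 ⊆ c → c ⊆ T.2 →
      SplitsAll (Insert.insert (iL c₁) p.R) I.2 T.2 c →
      ValidR (Insert.insert (iR c) (Insert.insert (iL c₁) p.R)))
    (hF : ∀ c₁ c₂, Free (Insert.insert (iR c₂) (Insert.insert (iL c₁) p.R)) (c₁, c₂)) :
    ∃ q, p ≤ q ∧ ∃ g ∈ q.G, I.1 ⊆ g.1 ∧ g.1 ⊆ T.1 ∧ I.2 ⊆ g.2 ∧ g.2 ⊆ T.2 := by
  obtain ⟨c₁, a1, a2, a3, a4⟩ := exists_c p.valid.count p.Gc Prod.fst h₁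
  have V₁ := VL c₁ a1 a2 a3
  obtain ⟨c₂, b1, b2, b3, b4⟩ := exists_c V₁.count p.Gc Prod.snd h₂
  have V₂ := VR c₁ c₂ V₁ b1 b2 b3
  have hsub : p.R ⊆ Insert.insert (iR c₂) (Insert.insert (iL c₁) p.R) :=
    (subset_insert _ _).trans (subset_insert _ _)
  obtain ⟨q, hq, hg⟩ := add_gen p I T hT hI a1 a2 b1 b2 a4 b4 hsub V₂ (hF c₁ c₂)
  exact ⟨q, hq, (c₁, c₂), hg, a1, a2, b1, b2⟩

/-- Forced dependent pairs. -/
def IsHi (R : Set (Set ℕ × Rk)) (S : Set ℕ × Set ℕ) : Prop :=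
  (∃ x y, (S.1, x) ∈ R ∧ (S.2, y) ∈ R) ∨ (∃ x y, (S.1ᶜ, x) ∈ R ∧ (S.2, y) ∈ R ∧ y ≤ x)

/-- Forced non-spanning pairs. -/
def IsLo (R : Set (Set ℕ × Rk)) (S : Set ℕ × Set ℕ) : Prop :=
  (∃ x y, (S.1ᶜ, x) ∈ R ∧ (S.2ᶜ, y) ∈ R) ∨ (∃ x y, (S.1, x) ∈ R ∧ (S.2ᶜ, y) ∈ R ∧ y ≤ x)

theorem trichotomy {R : Set (Set ℕ × Rk)} {S : Set ℕ × Set ℕ} (h1 : Decided R S.1)
    (h2 : Decided R S.2) : IsHi R S ∨ IsLo R S ∨ Free R S := by
  rcases h1 with ⟨x, hx⟩ | ⟨x, hx⟩ <;> rcases h2 with ⟨y, hy⟩ | ⟨y, hy⟩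
  · exact Or.inl (Or.inl ⟨x, y, hx, hy⟩)
  · rcases le_or_gt y x with h | h
    · exact Or.inr (Or.inl (Or.inr ⟨x, y, hx, hy, h⟩))
    · exact Or.inr (Or.inr (Or.inr ⟨x, y, hx, hy, h⟩))
  · rcases le_or_gt y x with h | h
    · exact Or.inl (Or.inr ⟨x, y, hx, hy, h⟩)
    · exact Or.inr (Or.inr (Or.inl ⟨x, y, hx, hy, h⟩))
  · exact Or.inr (Or.inl (Or.inl ⟨x, y, hx, hy⟩))

/-- The requirement of the task `(I, T)`. -/
def Done (R : Set (Set ℕ × Rk)) (G : Set (Set ℕ × Set ℕ)) (I T : Set ℕ × Set ℕ) : Prop :=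
  IsHi R I ∨ IsLo R T ∨ ∃ g ∈ G, ASub T g ∨ ASub g I ∨ (ASub I g ∧ ASub g T)

theorem ASub.of_subset {g h : Set ℕ × Set ℕ} (h1 : g.1 ⊆ h.1) (h2 : g.2 ⊆ h.2) : ASub g h :=
  ⟨finite_empty.subset (fun _ hx => (hx.2 (h1 hx.1)).elim),
   finite_empty.subset (fun _ hx => (hx.2 (h2 hx.1)).elim)⟩

theorem mem_insert_of_mem' {R : Set (Set ℕ × Rk)} {x y : Set ℕ × Rk} (h : x ∈ R) :
    x ∈ Insert.insert y R := Or.inr h

/-- Density of the tasks. -/
theorem exists_done (p : Cond) (I T : Set ℕ × Set ℕ) (h₁ : I.1 ⊆ T.1) (h₂ : I.2 ⊆ T.2) :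
    ∃ q, p ≤ q ∧ Decided q.R I.1 ∧ Decided q.R I.2 ∧ Decided q.R T.1 ∧ Decided q.R T.2 ∧
      Done q.R q.G I T := by
  obtain ⟨p1, hp1, d1⟩ := exists_decide p I.1
  obtain ⟨p2, hp2, d2⟩ := exists_decide p1 I.2
  obtain ⟨p3, hp3, d3⟩ := exists_decide p2 T.1
  obtain ⟨p4, hp4, d4⟩ := exists_decide p3 T.2
  have d1' := (d1.mono hp2.1).mono hp3.1 |>.mono hp4.1
  have d2' := (d2.mono hp3.1).mono hp4.1
  have d3' := d3.mono hp4.1
  have hpp : p ≤ p4 := hp1.trans (hp2.trans (hp3.trans hp4))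
  suffices h : ∃ q, p4 ≤ q ∧ Done q.R q.G I T by
    obtain ⟨q, hq, hd⟩ := h
    exact ⟨q, hpp.trans hq, d1'.mono hq.1, d2'.mono hq.1, d3'.mono hq.1, d4.mono hq.1, hd⟩
  clear hpp hp1 hp2 hp3 hp4 d1 d2 d3
  generalize p4 = r at d1' d2' d3' d4
  by_cases hHi : IsHi r.R I
  · exact ⟨r, le_rfl, Or.inl hHi⟩
  by_cases hLo : IsLo r.R T
  · exact ⟨r, le_rfl, Or.inr (Or.inl hLo)⟩
  by_cases hT : ∃ g ∈ r.G, ASub T g
  · obtain ⟨g, hg, h⟩ := hT
    exact ⟨r, le_rfl, Or.inr (Or.inr ⟨g, hg, Or.inl h⟩)⟩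
  by_cases hI : ∃ g ∈ r.G, ASub g I
  · obtain ⟨g, hg, h⟩ := hI
    exact ⟨r, le_rfl, Or.inr (Or.inr ⟨g, hg, Or.inr (Or.inl h)⟩)⟩
  push Not at hT hI
  have hT' : ∀ g ∈ r.G, ¬ ASub T g := fun g hg => hT g hg
  have hI' : ∀ g ∈ r.G, ¬ ASub g I := fun g hg => hI g hg
  suffices h : ∃ q, r ≤ q ∧ ∃ g ∈ q.G, I.1 ⊆ g.1 ∧ g.1 ⊆ T.1 ∧ I.2 ⊆ g.2 ∧ g.2 ⊆ T.2 by
    obtain ⟨q, hq, g, hg, a1, a2, a3, a4⟩ := h
    exact ⟨q, hq, Or.inr (Or.inr ⟨g, hg, Or.inr (Or.inr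
      ⟨ASub.of_subset a1 a3, ASub.of_subset a2 a4⟩)⟩)⟩
  have hV := r.valid
  rcases trichotomy d1' d2' with h | hIc | hIc
  · exact absurd h hHi
  · -- `I` is forced low
    rcases trichotomy d3' d4 with hTc | h | hTc
    · -- `I` low, `T` high
      have hX : ∃ y, (I.2ᶜ, y) ∈ r.R := by
        rcases hIc with ⟨x, y, _, h⟩ | ⟨x, y, _, h, _⟩ <;> exact ⟨y, h⟩
      have hY : ∃ y, (T.2, y) ∈ r.R := by
        rcases hTc with ⟨x, y, _, h⟩ | ⟨x, y, _, h, _⟩ <;> exact ⟨y, h⟩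
      obtain ⟨y₁, hy₁⟩ := hX
      obtain ⟨y₂, hy₂⟩ := hY
      obtain ⟨τ₀, hτ₀⟩ := exists_rank_bound hV.count
      rcases hIc with ⟨x, y, hx, -⟩ | ⟨x, y, hx, -⟩
      · -- the left part of `I` is small
        let τ := max τ₀ (Order.succ x)
        have hxτ : x < τ := lt_of_lt_of_le (Order.lt_succ x) (le_max_right _ _)
        have hτ : ∀ c₁ : Set ℕ, ∀ s ∈ Insert.insert (c₁ᶜ, x) r.R, s.2 < τ := by
          rintro c₁ s (rfl | hs)
          · exact hxτ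
          · exact lt_of_lt_of_le (hτ₀ s hs) (le_max_left _ _)
        refine two_step r I T h₁ h₂ hT' hI' (fun c => (cᶜ, x)) (fun c => (c, τ)) ?_ ?_ ?_
        · intro c a1 a2 a3
          exact op_rem hV a1 a2 a3 hx
        · intro c₁ c V a1 a2 a3
          exact op_high V a1 a2 a3 (mem_insert_of_mem' hy₁) (mem_insert_of_mem' hy₂) (hτ c₁)
        · intro c₁ c₂
          exact Or.inl ⟨x, τ, Or.inr (Or.inl rfl), Or.inl rfl, hxτ⟩
      · -- the left part of `I` is large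
        let τ := max τ₀ (Order.succ x)
        have hxτ : x < τ := lt_of_lt_of_le (Order.lt_succ x) (le_max_right _ _)
        have hτ : ∀ c₁ : Set ℕ, ∀ s ∈ Insert.insert (c₁, x) r.R, s.2 < τ := by
          rintro c₁ s (rfl | hs)
          · exact hxτ
          · exact lt_of_lt_of_le (hτ₀ s hs) (le_max_left _ _)
        refine two_step r I T h₁ h₂ hT' hI' (fun c => (c, x)) (fun c => (cᶜ, τ)) ?_ ?_ ?_
        · intro c a1 a2 a3
          exact op_add hV a1 a2 a3 hx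
        · intro c₁ c V a1 a2 a3
          exact op_high' V a1 a2 a3 (mem_insert_of_mem' hy₁) (mem_insert_of_mem' hy₂) (hτ c₁)
        · intro c₁ c₂
          exact Or.inr ⟨x, τ, Or.inr (Or.inl rfl), Or.inl rfl, hxτ⟩
    · exact absurd h hLo
    · -- `T` free
      rcases hTc with ⟨x, y, hx, hy, hxy⟩ | ⟨x, y, hx, hy, hxy⟩
      · refine two_step r I T h₁ h₂ hT' hI' (fun c => (cᶜ, x)) (fun c => (c, y)) ?_ ?_ ?_
        · intro c a1 a2 a3
          exact op_add' hV a1 a2 a3 hx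
        · intro c₁ c V a1 a2 a3
          exact op_rem' V a1 a2 a3 (mem_insert_of_mem' hy)
        · intro c₁ c₂
          exact Or.inl ⟨x, y, Or.inr (Or.inl rfl), Or.inl rfl, hxy⟩
      · refine two_step r I T h₁ h₂ hT' hI' (fun c => (c, x)) (fun c => (cᶜ, y)) ?_ ?_ ?_
        · intro c a1 a2 a3
          exact op_rem' hV a1 a2 a3 hx
        · intro c₁ c V a1 a2 a3
          exact op_add' V a1 a2 a3 (mem_insert_of_mem' hy)
        · intro c₁ c₂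
          exact Or.inr ⟨x, y, Or.inr (Or.inl rfl), Or.inl rfl, hxy⟩
  · -- `I` free
    rcases hIc with ⟨x, y, hx, hy, hxy⟩ | ⟨x, y, hx, hy, hxy⟩
    · refine two_step r I T h₁ h₂ hT' hI' (fun c => (cᶜ, x)) (fun c => (c, y)) ?_ ?_ ?_
      · intro c a1 a2 a3
        exact op_rem hV a1 a2 a3 hx
      · intro c₁ c V a1 a2 a3
        exact op_add V a1 a2 a3 (mem_insert_of_mem' hy)
      · intro c₁ c₂
        exact Or.inl ⟨x, y, Or.inr (Or.inl rfl), Or.inl rfl, hxy⟩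
    · refine two_step r I T h₁ h₂ hT' hI' (fun c => (c, x)) (fun c => (cᶜ, y)) ?_ ?_ ?_
      · intro c a1 a2 a3
        exact op_add hV a1 a2 a3 hx
      · intro c₁ c V a1 a2 a3
        exact op_rem V a1 a2 a3 (mem_insert_of_mem' hy)
      · intro c₁ c₂
        exact Or.inr ⟨x, y, Or.inr (Or.inl rfl), Or.inl rfl, hxy⟩

end Vale.Agent.Lib.P068.CH
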