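import Mathlib

namespace Vale.Agent.Lib.P068.CH

open Set

variable {α : Type*}

/-- `S` and `g` differ by a finite set. -/
def Near (S g : Set α) : Prop := (S \ g).Finite ∧ (g \ S).Finite

/-- The index of `S` relative to `g`. -/
noncomputable def ind (S g : Set α) : ℤ := ((S \ g).ncard : ℤ) - ((g \ S).ncard : ℤ)

theorem Near.refl (g : Set α) : Near g g := by simp [Near]

theorem ind_self (g : Set α) : ind g g = 0 := by simp [ind]

theorem Near.insert {S g : Set α} (h : Near S g) (e : α) : Near (Insert.insert e S) g := by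
  constructor
  · refine (h.1.insert e).subset ?_
    rintro x ⟨rfl | hx, hxg⟩
    · exact mem_insert _ _
    · exact Or.inr ⟨hx, hxg⟩
  · exact h.2.subset (fun x hx => ⟨hx.1, fun hxS => hx.2 (Or.inr hxS)⟩)

theorem ind_insert {S g : Set α} (h : Near S g) {e : α} (he : e ∉ S) :
    ind (Insert.insert e S) g = ind S g + 1 := by
  unfold ind
  by_cases heg : e ∈ g
  · have h1 : Insert.insert e S \ g = S \ g := by
      ext x; constructor
      · rintro ⟨rfl | hx, hxg⟩
        · exact absurd heg hxg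
        · exact ⟨hx, hxg⟩
      · rintro ⟨hx, hxg⟩; exact ⟨Or.inr hx, hxg⟩
    have h2 : g \ S = Insert.insert e (g \ Insert.insert e S) := by
      ext x; constructor
      · rintro ⟨hxg, hxS⟩
        by_cases hxe : x = e
        · exact Or.inl hxe
        · exact Or.inr ⟨hxg, by rintro (rfl | hx'); exact hxe rfl; exact hxS hx'⟩
      · rintro (rfl | ⟨hxg, hxS⟩)
        · exact ⟨heg, he⟩
        · exact ⟨hxg, fun hx => hxS (Or.inr hx)⟩
    have hf : (g \ Insert.insert e S).Finite :=
      h.2.subset (fun x hx => ⟨hx.1, fun hxS => hx.2 (Or.inr hxS)⟩)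
    have h3 : (g \ S).ncard = (g \ Insert.insert e S).ncard + 1 := by
      rw [h2]
      refine ncard_insert_of_notMem ?_ hf
      exact fun hx => hx.2 (mem_insert _ _)
    rw [h1, h3]; push_cast; ring
  · have h1 : Insert.insert e S \ g = Insert.insert e (S \ g) := by
      ext x; constructor
      · rintro ⟨rfl | hx, hxg⟩
        · exact mem_insert _ _
        · exact Or.inr ⟨hx, hxg⟩
      · rintro (rfl | ⟨hx, hxg⟩)
        · exact ⟨mem_insert _ _, heg⟩
        · exact ⟨Or.inr hx, hxg⟩
    have h2 : g \ Insert.insert e S = g \ S := by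
      ext x; constructor
      · rintro ⟨hxg, hxS⟩; exact ⟨hxg, fun hx => hxS (Or.inr hx)⟩
      · rintro ⟨hxg, hxS⟩
        refine ⟨hxg, ?_⟩
        rintro (rfl | hx)
        · exact heg hxg
        · exact hxS hx
    have h3 : (Insert.insert e (S \ g)).ncard = (S \ g).ncard + 1 :=
      ncard_insert_of_notMem (fun hx => he hx.1) h.1
    rw [h1, h2, h3]; push_cast; ring

theorem Near.erase {S g : Set α} (h : Near S g) (e : α) : Near (S \ {e}) g := by
  constructor
  · exact h.1.subset (fun x hx => ⟨hx.1.1, hx.2⟩)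
  · refine (h.2.insert e).subset ?_
    rintro x ⟨hxg, hxS⟩
    by_cases hxe : x = e
    · exact Or.inl hxe
    · exact Or.inr ⟨hxg, fun hx => hxS ⟨hx, hxe⟩⟩

theorem ind_erase {S g : Set α} (h : Near S g) {e : α} (he : e ∈ S) :
    ind (S \ {e}) g = ind S g - 1 := by
  have h1 := ind_insert (h.erase e) (e := e) (fun hx => hx.2 rfl)
  have h2 : Insert.insert e (S \ {e}) = S := by
    ext x; constructor
    · rintro (rfl | hx)
      · exact he
      · exact hx.1
    · intro hx
      by_cases hxe : x = e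
      · exact Or.inl hxe
      · exact Or.inr ⟨hx, hxe⟩
  rw [h2] at h1
  linarith

theorem ind_mono {S S' g : Set α} (h : S ⊆ S') (hS : Near S g) (hS' : Near S' g) :
    ind S g ≤ ind S' g := by
  unfold ind
  have h1 : (S \ g).ncard ≤ (S' \ g).ncard :=
    ncard_le_ncard (fun x hx => ⟨h hx.1, hx.2⟩) hS'.1
  have h2 : (g \ S').ncard ≤ (g \ S).ncard :=
    ncard_le_ncard (fun x hx => ⟨hx.1, fun hxS => hx.2 (h hxS)⟩) hS.2
  omega

/-- A base of the class of `g` between `I` and `T`. -/
theorem exists_between {g I T : Set α} (hIT : I ⊆ T) (hI : (I \ g).Finite) (hT : (g \ T).Finite)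
    (hIi : (g \ I).Finite → ind I g ≤ 0) (hTi : (T \ g).Finite → 0 ≤ ind T g) :
    ∃ B, I ⊆ B ∧ B ⊆ T ∧ Near B g ∧ ind B g = 0 := by
  classical
  have key : ∀ n : ℕ, ∀ S, I ⊆ S → S ⊆ T → Near S g → (ind S g).natAbs = n →
      ∃ B, I ⊆ B ∧ B ⊆ T ∧ Near B g ∧ ind B g = 0 := by
    intro n
    induction n with
    | zero =>
      intro S h1 h2 h3 h4
      exact ⟨S, h1, h2, h3, Int.natAbs_eq_zero.1 h4⟩
    | succ n ih =>
      intro S h1 h2 h3 h4
      rcases lt_trichotomy (ind S g) 0 with hneg | hz | hpos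
      · have hne : S ≠ T := by
          rintro rfl
          have := hTi h3.1
          omega
        obtain ⟨e, heT, heS⟩ : ∃ e ∈ T, e ∉ S := by
          by_contra hcon
          push Not at hcon
          exact hne (subset_antisymm h2 hcon)
        refine ih _ (h1.trans (subset_insert e S)) ?_ (h3.insert e) ?_
        · exact insert_subset heT h2
        · rw [ind_insert h3 heS]; omega
      · rw [hz] at h4; simp at h4
      · have hne : S ≠ I := by
          rintro rfl
          have := hIi h3.2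
          omega
        obtain ⟨e, heS, heI⟩ : ∃ e ∈ S, e ∉ I := by
          by_contra hcon
          push Not at hcon
          exact hne (subset_antisymm hcon h1)
        have hsub : I ⊆ S \ {e} := fun x hx => ⟨h1 hx, by rintro rfl; exact heI hx⟩
        refine ih _ hsub (fun x hx => h2 hx.1) (h3.erase e) ?_
        rw [ind_erase h3 heS]; omega
  have hS1 : I ⊆ (g ∪ I) ∩ T := fun x hx => ⟨Or.inr hx, hIT hx⟩
  have hS2 : (g ∪ I) ∩ T ⊆ T := inter_subset_right
  have hS3 : Near ((g ∪ I) ∩ T) g := by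
    constructor
    · refine hI.subset ?_
      rintro x ⟨⟨hx | hx, -⟩, hxg⟩
      · exact absurd hx hxg
      · exact ⟨hx, hxg⟩
    · refine hT.subset ?_
      rintro x ⟨hxg, hx⟩
      exact ⟨hxg, fun hxT => hx ⟨Or.inl hxg, hxT⟩⟩
  exact key _ _ hS1 hS2 hS3 rfl

section
variable (G : Set (Set α))

/-- The bases of the matroid generated by `G`: sets of index zero relative to a generator. -/
def IsB (B : Set α) : Prop := ∃ g ∈ G, Near B g ∧ ind B g = 0

variable {G}

theorem IsB.antichain (anti : ∀ g ∈ G, ∀ h ∈ G, (g \ h).Finite → g = h) {B B' : Set α}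
    (hB : IsB G B) (hB' : IsB G B') (h : B ⊆ B') : B = B' := by
  obtain ⟨g, hg, hn, hi⟩ := hB
  obtain ⟨g', hg', hn', hi'⟩ := hB'
  have hgg : g = g' := by
    refine anti g hg g' hg' ((hn.2.union hn'.1).subset ?_)
    rintro x ⟨hxg, hxg'⟩
    by_cases hxB : x ∈ B
    · exact Or.inr ⟨h hxB, hxg'⟩
    · exact Or.inl ⟨hxg, hxB⟩
  subst hgg
  by_contra hne
  obtain ⟨e, heB', heB⟩ : ∃ e ∈ B', e ∉ B := by
    by_contra hcon
    push Not at hcon
    exact hne (subset_antisymm h hcon)
  have h1 : ind B g ≤ ind (B' \ {e}) g :=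
    ind_mono (fun x hx => ⟨h hx, by rintro rfl; exact heB hx⟩) hn (hn'.erase e)
  rw [ind_erase hn' heB'] at h1
  omega

/-- The matroid of the generator family. -/
def unifMatroid (anti : ∀ g ∈ G, ∀ h ∈ G, (g \ h).Finite → g = h)
    (span : ∀ S : Set α, ∃ g ∈ G, (S \ g).Finite ∨ (g \ S).Finite)
    (interval : ∀ I T : Set α, I ⊆ T → (∃ g ∈ G, (I \ g).Finite) → (∃ g ∈ G, (g \ T).Finite) →
      ∃ g ∈ G, (I \ g).Finite ∧ (g \ T).Finite) : Matroid α where
  E := univ
  IsBase := IsB G
  Indep := fun I => ∃ B, IsB G B ∧ I ⊆ B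
  indep_iff' := fun _ => Iff.rfl
  exists_isBase := by
    obtain ⟨g, hg, -⟩ := span ∅
    exact ⟨g, g, hg, Near.refl g, ind_self g⟩
  isBase_exchange := by
    intro B₁ B₂ hB₁ hB₂ a ha
    obtain ⟨g, hg, hn, hi⟩ := id hB₁
    have hex : ∃ b ∈ B₂, b ∉ B₁ := by
      by_contra hcon
      push Not at hcon
      have := IsB.antichain anti hB₂ hB₁ hcon
      rw [this] at ha
      exact ha.2 ha.1
    obtain ⟨b, hb2, hb1⟩ := hex
    refine ⟨b, ⟨hb2, hb1⟩, g, hg, (hn.erase a).insert b, ?_⟩
    rw [ind_insert (hn.erase a) (fun hx => hb1 hx.1), ind_erase hn ha.1, hi]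
    ring
  maximality := by
    intro X _ I hI hIX
    by_cases hXi : ∃ B, IsB G B ∧ X ⊆ B
    · refine ⟨X, hIX, ⟨hXi, subset_rfl⟩, ?_⟩
      intro K hK hXK
      exact hK.2
    · -- independent sets are bounded by generators
      obtain ⟨B₁, ⟨g₁, hg₁, hn₁, hi₁⟩, hIB₁⟩ := hI
      have hI₁ : (I \ g₁).Finite := hn₁.1.subset (fun x hx => ⟨hIB₁ hx.1, hx.2⟩)
      have hI₂ : (g₁ \ I).Finite → ind I g₁ ≤ 0 := by
        intro hf
        have := ind_mono hIB₁ ⟨hI₁, hf⟩ hn₁
        omega
      -- `X` contains a generator modulo finite sets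
      have hXs : ∃ g₂ ∈ G, (g₂ \ X).Finite ∧ ((X \ g₂).Finite → 0 ≤ ind X g₂) := by
        obtain ⟨g₂, hg₂, h⟩ := span X
        by_cases hf : (g₂ \ X).Finite
        · refine ⟨g₂, hg₂, hf, ?_⟩
          intro hf2
          by_contra hneg
          apply hXi
          obtain ⟨B, h1, -, h3, h4⟩ := exists_between (g := g₂) (I := X) (T := univ)
            (subset_univ _) hf2 (by simp) (fun _ => by omega)
            (fun hu => by
              have : ind (univ : Set α) g₂ = ((univ \ g₂ : Set α).ncard : ℤ) := by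
                simp [ind]
              rw [this]; positivity)
          exact ⟨B, ⟨g₂, hg₂, h3, h4⟩, h1⟩
        · rcases h with h | h
          · exfalso
            apply hXi
            obtain ⟨B, h1, -, h3, h4⟩ := exists_between (g := g₂) (I := X) (T := univ)
              (subset_univ _) h (by simp) (fun hc => absurd hc hf)
              (fun hu => by
                have : ind (univ : Set α) g₂ = ((univ \ g₂ : Set α).ncard : ℤ) := by
                  simp [ind]
                rw [this]; positivity)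
            exact ⟨B, ⟨g₂, hg₂, h3, h4⟩, h1⟩
          · exact absurd h hf
      obtain ⟨g₂, hg₂, hX₁, hX₂⟩ := hXs
      obtain ⟨g, hg, hIg, hgX⟩ := interval I X hIX ⟨g₁, hg₁, hI₁⟩ ⟨g₂, hg₂, hX₁⟩
      have hgg₁ : (g \ I).Finite → g = g₁ := fun hf =>
        anti g hg g₁ hg₁ ((hf.union hI₁).subset (by
          rintro x ⟨hxg, hxg₁⟩
          by_cases hxI : x ∈ I
          · exact Or.inr ⟨hxI, hxg₁⟩
          · exact Or.inl ⟨hxg, hxI⟩))
      have hgg₂ : (X \ g).Finite → g₂ = g := fun hf =>
        anti g₂ hg₂ g hg ((hX₁.union hf).subset (by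
          rintro x ⟨hxg₂, hxg⟩
          by_cases hxX : x ∈ X
          · exact Or.inr ⟨hxX, hxg⟩
          · exact Or.inl ⟨hxg₂, hxX⟩))
      obtain ⟨B, h1, h2, h3, h4⟩ := exists_between hIX hIg hgX
        (fun hf => by
          have := hgg₁ hf
          subst this
          exact hI₂ hf)
        (fun hf => by
          have := hgg₂ hf
          subst this
          exact hX₂ hf)
      have hB : IsB G B := ⟨g, hg, h3, h4⟩
      refine ⟨B, h1, ⟨⟨B, hB, subset_rfl⟩, h2⟩, ?_⟩
      rintro K ⟨⟨B', hB', hKB'⟩, hKX⟩ hBK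
      have := IsB.antichain anti hB hB' (hBK.trans hKB')
      subst this
      exact hKB'
  subset_ground := fun _ _ => subset_univ _

end

/-- The interface of the matroid built from a family of generators. -/
theorem exists_unif (G : Set (Set α)) (anti : ∀ g ∈ G, ∀ h ∈ G, (g \ h).Finite → g = h)
    (span : ∀ S : Set α, ∃ g ∈ G, (S \ g).Finite ∨ (g \ S).Finite)
    (interval : ∀ I T : Set α, I ⊆ T → (∃ g ∈ G, (I \ g).Finite) → (∃ g ∈ G, (g \ T).Finite) →
      ∃ g ∈ G, (I \ g).Finite ∧ (g \ T).Finite) :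
    ∃ U : Matroid α, U.E = univ ∧ (∀ S, U.Indep S → ∃ g ∈ G, (S \ g).Finite) ∧
      (∀ S, (∃ B, U.IsBase B ∧ B ⊆ S) → ∃ g ∈ G, (g \ S).Finite) ∧
      (∀ S, U.Indep S ∨ ∃ B, U.IsBase B ∧ B ⊆ S) := by
  refine ⟨unifMatroid anti span interval, rfl, ?_, ?_, ?_⟩
  · rintro S ⟨B, ⟨g, hg, hn, -⟩, hSB⟩
    exact ⟨g, hg, hn.1.subset (fun x hx => ⟨hSB hx.1, hx.2⟩)⟩
  · rintro S ⟨B, ⟨g, hg, hn, -⟩, hBS⟩
    exact ⟨g, hg, hn.2.subset (fun x hx => ⟨hx.1, fun hxB => hx.2 (hBS hxB)⟩)⟩
  · intro S
    obtain ⟨g, hg, h⟩ := span S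
    have hA : (S \ g).Finite → ((g \ S).Finite → ind S g ≤ 0) →
        (unifMatroid anti span interval).Indep S := by
      intro h1 h2
      obtain ⟨B, b1, -, b3, b4⟩ := exists_between (g := g) (I := S) (T := univ)
        (subset_univ _) h1 (by simp) h2
        (fun hu => by
          have : ind (univ : Set α) g = ((univ \ g : Set α).ncard : ℤ) := by
            simp [ind]
          rw [this]; positivity)
      exact ⟨B, ⟨g, hg, b3, b4⟩, b1⟩
    have hB : (g \ S).Finite → ((S \ g).Finite → 0 ≤ ind S g) →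
        ∃ B, (unifMatroid anti span interval).IsBase B ∧ B ⊆ S := by
      intro h1 h2
      obtain ⟨B, -, b2, b3, b4⟩ := exists_between (g := g) (I := ∅) (T := S)
        (empty_subset _) (by simp) h1
        (fun _ => by simp [ind]) h2
      exact ⟨B, ⟨g, hg, b3, b4⟩, b2⟩
    by_cases h1 : (S \ g).Finite
    · by_cases h2 : (g \ S).Finite
      · rcases le_total (ind S g) 0 with h3 | h3
        · exact Or.inl (hA h1 (fun _ => h3))
        · exact Or.inr (hB h2 (fun _ => h3))
      · exact Or.inl (hA h1 (fun hc => absurd hc h2))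
    · rcases h with h | h
      · exact absurd h h1
      · exact Or.inr (hB h (fun hc => absurd hc h1))

end Vale.Agent.Lib.P068.CH
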