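import Vale.Agent.Lib.P068.CH.Cond
import Vale.Agent.Lib.P068.CH.Unif

namespace Vale.Agent.Lib.P068.CH

open Set Cardinal

/-- The limit of the recursion. -/
structure Data where
  R : Set (Set ℕ × Rk)
  G : Set (Set ℕ × Set ℕ)
  link : ∀ p ∈ R, ∀ q ∈ R, (p.1 ∩ q.1).Infinite
  mono : ∀ p ∈ R, ∀ q ∈ R, (p.1 \ q.1).Finite → q.2 ≤ p.2
  free : ∀ g ∈ G, Free R g
  anti : ∀ g ∈ G, ∀ h ∈ G, ASub g h → g = h
  dec : ∀ Z, Decided R Z
  task : ∀ I T : Set ℕ × Set ℕ, I.1 ⊆ T.1 → I.2 ⊆ T.2 → Done R G I T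

theorem mk_tasks : #((Set ℕ × Set ℕ) × (Set ℕ × Set ℕ)) = 𝔠 := by
  simp [Cardinal.mk_set, Cardinal.continuum_mul_self]

theorem IsHi.mono {R R' : Set (Set ℕ × Rk)} (h : R ⊆ R') {S : Set ℕ × Set ℕ} (hS : IsHi R S) :
    IsHi R' S := by
  rcases hS with ⟨x, y, h3, h4⟩ | ⟨x, y, h3, h4, h5⟩
  · exact Or.inl ⟨x, y, h h3, h h4⟩
  · exact Or.inr ⟨x, y, h h3, h h4, h5⟩

theorem IsLo.mono {R R' : Set (Set ℕ × Rk)} (h : R ⊆ R') {S : Set ℕ × Set ℕ} (hS : IsLo R S) :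
    IsLo R' S := by
  rcases hS with ⟨x, y, h3, h4⟩ | ⟨x, y, h3, h4, h5⟩
  · exact Or.inl ⟨x, y, h h3, h h4⟩
  · exact Or.inr ⟨x, y, h h3, h h4, h5⟩

theorem exists_data (hCH : aleph.{0} 1 = 𝔠) : Nonempty Data := by
  classical
  let ι := (aleph.{0} 1).ord.ToType
  have hι : ∀ i : ι, (Set.Iio i).Countable := by
    intro i
    have h1 : #(Set.Iio i) < aleph.{0} 1 := Cardinal.mk_Iio_toType_ord_lt i
    have h2 : #(Set.Iio i) ≤ ℵ₀ := Order.lt_succ_iff.1 (by rw [Cardinal.succ_aleph0]; exact h1)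
    exact Cardinal.le_aleph0_iff_set_countable.1 h2
  have hcard : #ι = #((Set ℕ × Set ℕ) × (Set ℕ × Set ℕ)) := by
    rw [mk_tasks, ← hCH]
    exact Cardinal.mk_ord_toType _
  obtain ⟨e⟩ := Cardinal.eq.1 hcard
  let D : ι → Cond → Prop := fun i q =>
    (e i).1.1 ⊆ (e i).2.1 → (e i).1.2 ⊆ (e i).2.2 →
      Decided q.R (e i).1.1 ∧ Decided q.R (e i).1.2 ∧ Decided q.R (e i).2.1 ∧
        Decided q.R (e i).2.2 ∧ Done q.R q.G (e i).1 (e i).2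
  have hD : ∀ i p, ∃ q, p ≤ q ∧ D i q := by
    intro i p
    by_cases h : (e i).1.1 ⊆ (e i).2.1 ∧ (e i).1.2 ⊆ (e i).2.2
    · obtain ⟨q, hq, hd⟩ := exists_done p (e i).1 (e i).2 h.1 h.2
      exact ⟨q, hq, fun _ _ => hd⟩
    · exact ⟨p, le_rfl, fun h1 h2 => absurd ⟨h1, h2⟩ h⟩
  obtain ⟨f, hf, hfD⟩ := exists_generic (P := Cond) Cond.ub hι D hD
  have joint : ∀ i j, ∃ k, f i ≤ f k ∧ f j ≤ f k := by
    intro i j
    rcases lt_trichotomy i j with h | rfl | h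
    · exact ⟨j, hf i j h, le_rfl⟩
    · exact ⟨i, le_rfl, le_rfl⟩
    · exact ⟨i, le_rfl, hf j i h⟩
  have hR : ∀ i, (f i).R ⊆ ⋃ j, (f j).R := fun i => subset_iUnion (fun j => (f j).R) i
  have hG : ∀ i, (f i).G ⊆ ⋃ j, (f j).G := fun i => subset_iUnion (fun j => (f j).G) i
  have hDone : ∀ I T : Set ℕ × Set ℕ, I.1 ⊆ T.1 → I.2 ⊆ T.2 →
      Decided (⋃ j, (f j).R) I.1 ∧ Done (⋃ j, (f j).R) (⋃ j, (f j).G) I T := by
    intro I T h1 h2
    have h := hfD (e.symm (I, T))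
    simp only [D, Equiv.apply_symm_apply] at h
    obtain ⟨d1, -, -, -, d⟩ := h h1 h2
    refine ⟨d1.mono (hR _), ?_⟩
    rcases d with d | d | d
    · exact Or.inl (IsHi.mono (hR _) d)
    · exact Or.inr (Or.inl (IsLo.mono (hR _) d))
    · obtain ⟨g, hg, hh⟩ := d
      exact Or.inr (Or.inr ⟨g, hG _ hg, hh⟩)
  refine ⟨⟨⋃ j, (f j).R, ⋃ j, (f j).G, ?_, ?_, ?_, ?_, ?_, ?_⟩⟩
  · intro p hp q hq
    obtain ⟨i, hi⟩ := mem_iUnion.1 hp
    obtain ⟨j, hj⟩ := mem_iUnion.1 hq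
    obtain ⟨k, h1, h2⟩ := joint i j
    exact (f k).valid.link p (h1.1 hi) q (h2.1 hj)
  · intro p hp q hq
    obtain ⟨i, hi⟩ := mem_iUnion.1 hp
    obtain ⟨j, hj⟩ := mem_iUnion.1 hq
    obtain ⟨k, h1, h2⟩ := joint i j
    exact (f k).valid.mono p (h1.1 hi) q (h2.1 hj)
  · intro g hg
    obtain ⟨i, hi⟩ := mem_iUnion.1 hg
    exact ((f i).free g hi).mono (hR i)
  · intro g hg h hh
    obtain ⟨i, hi⟩ := mem_iUnion.1 hg
    obtain ⟨j, hj⟩ := mem_iUnion.1 hh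
    obtain ⟨k, h1, h2⟩ := joint i j
    exact (f k).anti g (h1.2 hi) h (h2.2 hj)
  · intro Z
    exact (hDone (Z, Z) (Z, Z) subset_rfl subset_rfl).1
  · intro I T h1 h2
    exact (hDone I T h1 h2).2

namespace Data

variable (d : Data)

theorem up {A B : Set ℕ} {x : Rk} (hA : (A, x) ∈ d.R) (h : (A \ B).Finite) : ∃ y, (B, y) ∈ d.R := by
  rcases d.dec B with hB | ⟨y, hy⟩
  · exact hB
  · exfalso
    refine d.link (A, x) hA (Bᶜ, y) hy (h.subset ?_)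
    rintro z ⟨hzA, hzB⟩
    exact ⟨hzA, hzB⟩

theorem not_both {Z : Set ℕ} {x y : Rk} (h1 : (Z, x) ∈ d.R) (h2 : (Zᶜ, y) ∈ d.R) : False := by
  have := d.link (Z, x) h1 (Zᶜ, y) h2
  simp at this

theorem empty_notMem {x : Rk} : (∅, x) ∉ d.R := by
  intro h
  have := d.link (∅, x) h (∅, x) h
  simp at this

theorem compl_sdiff_finite {A B C D : Set ℕ} (h : (A \ C).Finite) (hB : B = Cᶜ) (hD : D = Aᶜ) :
    (B \ D).Finite := by
  subst hB hD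
  refine h.subset ?_
  rintro z ⟨hz1, hz2⟩
  exact ⟨not_not.1 hz2, hz1⟩

/-- Forced dependent pairs are never below a free pair. -/
theorem hi_free_false {S g : Set ℕ × Set ℕ} (hS : IsHi d.R S) (hsub : ASub S g)
    (hg : Free d.R g) : False := by
  rcases hS with ⟨x, y, h1, h2⟩ | ⟨x, y, h1, h2, hle⟩
  · obtain ⟨x', hx'⟩ := d.up h1 hsub.1
    obtain ⟨y', hy'⟩ := d.up h2 hsub.2
    rcases hg with ⟨u, v, h3, -, -⟩ | ⟨u, v, -, h3, -⟩
    · exact d.not_both hx' h3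
    · exact d.not_both hy' h3
  · obtain ⟨y', hy'⟩ := d.up h2 hsub.2
    rcases hg with ⟨u, v, h3, h4, hlt⟩ | ⟨u, v, -, h3, -⟩
    · have a1 : x ≤ u := d.mono (g.1ᶜ, u) h3 (S.1ᶜ, x) h1
        (compl_sdiff_finite hsub.1 rfl rfl)
      have a2 : v ≤ y := d.mono (S.2, y) h2 (g.2, v) h4 hsub.2
      exact absurd (lt_of_le_of_lt (hle.trans a1) hlt) (not_lt.2 a2)
    · exact d.not_both hy' h3

/-- Forced non-spanning pairs are never above a free pair. -/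
theorem lo_free_false {S g : Set ℕ × Set ℕ} (hS : IsLo d.R S) (hsub : ASub g S)
    (hg : Free d.R g) : False := by
  have c1 : (S.1ᶜ \ g.1ᶜ).Finite := compl_sdiff_finite hsub.1 rfl rfl
  have c2 : (S.2ᶜ \ g.2ᶜ).Finite := compl_sdiff_finite hsub.2 rfl rfl
  rcases hS with ⟨x, y, h1, h2⟩ | ⟨x, y, h1, h2, hle⟩
  · obtain ⟨x', hx'⟩ := d.up h1 c1
    obtain ⟨y', hy'⟩ := d.up h2 c2
    rcases hg with ⟨u, v, -, h3, -⟩ | ⟨u, v, h3, -, -⟩
    · exact d.not_both h3 hy'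
    · exact d.not_both h3 hx'
  · obtain ⟨y', hy'⟩ := d.up h2 c2
    rcases hg with ⟨u, v, -, h3, -⟩ | ⟨u, v, h3, h4, hlt⟩
    · exact d.not_both h3 hy'
    · have a1 : x ≤ u := d.mono (g.1, u) h3 (S.1, x) h1 hsub.1
      have a2 : v ≤ y := d.mono (S.2ᶜ, y) h2 (g.2ᶜ, v) h4 c2
      exact absurd (lt_of_le_of_lt (hle.trans a1) hlt) (not_lt.2 a2)

theorem not_hi_lo {S : Set ℕ × Set ℕ} (h1 : IsHi d.R S) (h2 : IsLo d.R S) : False := by
  have hS2 : ∃ y, (S.2, y) ∈ d.R := by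
    rcases h1 with ⟨x, y, -, h⟩ | ⟨x, y, -, h, -⟩ <;> exact ⟨y, h⟩
  have hS2' : ∃ y, (S.2ᶜ, y) ∈ d.R := by
    rcases h2 with ⟨x, y, -, h⟩ | ⟨x, y, -, h, -⟩ <;> exact ⟨y, h⟩
  obtain ⟨y, hy⟩ := hS2
  obtain ⟨y', hy'⟩ := hS2'
  exact d.not_both hy hy'

theorem ASub.trans {a b c : Set ℕ × Set ℕ} (h1 : ASub a b) (h2 : ASub b c) : ASub a c := by
  constructor
  · refine (h1.1.union h2.1).subset ?_
    rintro z ⟨hza, hzc⟩
    by_cases hzb : z ∈ b.1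
    · exact Or.inr ⟨hzb, hzc⟩
    · exact Or.inl ⟨hza, hzb⟩
  · refine (h1.2.union h2.2).subset ?_
    rintro z ⟨hza, hzc⟩
    by_cases hzb : z ∈ b.2
    · exact Or.inr ⟨hzb, hzc⟩
    · exact Or.inl ⟨hza, hzb⟩

theorem span (S : Set ℕ × Set ℕ) : ∃ g ∈ d.G, ASub S g ∨ ASub g S := by
  by_cases hHi : IsHi d.R S
  · have hLo : ¬ IsLo d.R S := fun h => d.not_hi_lo hHi h
    rcases d.task (∅, ∅) S (empty_subset _) (empty_subset _) with h | h | h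
    · exfalso
      rcases h with ⟨x, y, h1, -⟩ | ⟨x, y, -, h1, -⟩
      · exact d.empty_notMem h1
      · exact d.empty_notMem h1
    · exact absurd h hLo
    · obtain ⟨g, hg, h⟩ := h
      rcases h with h | h | h
      · exact ⟨g, hg, Or.inl h⟩
      · exact ⟨g, hg, Or.inr (ASub.trans h (ASub.of_subset (empty_subset _) (empty_subset _)))⟩
      · exact ⟨g, hg, Or.inr h.2⟩
  · rcases d.task S (univ, univ) (subset_univ _) (subset_univ _) with h | h | h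
    · exact absurd h hHi
    · exfalso
      rcases h with ⟨x, y, h1, -⟩ | ⟨x, y, -, h1, -⟩
      · simp only [compl_univ] at h1
        exact d.empty_notMem h1
      · simp only [compl_univ] at h1
        exact d.empty_notMem h1
    · obtain ⟨g, hg, h⟩ := h
      rcases h with h | h | h
      · exact ⟨g, hg, Or.inl (ASub.trans (ASub.of_subset (subset_univ _) (subset_univ _)) h)⟩
      · exact ⟨g, hg, Or.inr h⟩
      · exact ⟨g, hg, Or.inl h.1⟩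

theorem interval (I T : Set ℕ × Set ℕ) (h1 : I.1 ⊆ T.1) (h2 : I.2 ⊆ T.2)
    (h₁ : ∃ g ∈ d.G, ASub I g) (h₂ : ∃ g ∈ d.G, ASub g T) :
    ∃ g ∈ d.G, ASub I g ∧ ASub g T := by
  obtain ⟨g₁, hg₁, hI⟩ := h₁
  obtain ⟨g₂, hg₂, hT⟩ := h₂
  have hIT : ASub I T := ASub.of_subset h1 h2
  rcases d.task I T h1 h2 with h | h | h
  · exact (d.hi_free_false h hI (d.free g₁ hg₁)).elim
  · exact (d.lo_free_false h hT (d.free g₂ hg₂)).elim
  · obtain ⟨g, hg, h⟩ := h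
    rcases h with h | h | h
    · have := d.anti g₂ hg₂ g hg (ASub.trans hT h)
      subst this
      exact ⟨g₂, hg, ASub.trans hIT h, hT⟩
    · have := d.anti g hg g₁ hg₁ (ASub.trans h hI)
      subst this
      exact ⟨g, hg, hI, ASub.trans h hIT⟩
    · exact ⟨g, hg, h⟩

end Data

end Vale.Agent.Lib.P068.CH
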