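import Vale.Agent.Lib.P068.CH.Split

namespace Vale.Agent.Lib.P068.CH

open Set

/-- Ranks are ordinals. -/
abbrev Rk := Ordinal.{0}

/-- A countable relation of large sets with ranks: pairwise infinite intersections, and the rank
is antitone for inclusion modulo finite sets. -/
structure ValidR (R : Set (Set ℕ × Rk)) : Prop where
  count : R.Countable
  link : ∀ p ∈ R, ∀ q ∈ R, (p.1 ∩ q.1).Infinite
  mono : ∀ p ∈ R, ∀ q ∈ R, (p.1 \ q.1).Finite → q.2 ≤ p.2

theorem inf_left {A B C : Set ℕ} (hA : A.Infinite) (h : A ⊆ B ∪ C) (hC : C.Finite) :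
    B.Infinite := fun hB => hA ((hB.union hC).subset h)

theorem ValidR.insert {R : Set (Set ℕ × Rk)} (hV : ValidR R) {x : Set ℕ × Rk}
    (hself : x.1.Infinite) (hl : ∀ p ∈ R, (x.1 ∩ p.1).Infinite)
    (h1 : ∀ q ∈ R, (x.1 \ q.1).Finite → q.2 ≤ x.2)
    (h2 : ∀ p ∈ R, (p.1 \ x.1).Finite → x.2 ≤ p.2) : ValidR (Insert.insert x R) := by
  refine ⟨hV.count.insert _, ?_, ?_⟩
  · rintro p (rfl | hp) q (rfl | hq)
    · simpa using hself
    · exact hl q hq
    · simpa [inter_comm] using hl p hp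
    · exact hV.link p hp q hq
  · rintro p (rfl | hp) q (rfl | hq)
    · exact fun _ => le_rfl
    · exact h1 q hq
    · exact h2 p hp
    · exact hV.mono p hp q hq

/-- The splitting hypothesis on `c` for the relation `R` and the interval from `a` to `b`. -/
def SplitsAll (R : Set (Set ℕ × Rk)) (a b c : Set ℕ) : Prop :=
  ∀ p ∈ R, Splits c (p.1 ∩ (b \ a)) ∧ Splits c ((b \ a) \ p.1)

variable {R : Set (Set ℕ × Rk)} {a b c : Set ℕ} {α τ : Rk}

/-- Adding a generic set to a large set keeps the rank. -/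
theorem op_add (hV : ValidR R) (hac : a ⊆ c) (hcb : c ⊆ b) (hs : SplitsAll R a b c)
    (ha : (a, α) ∈ R) : ValidR (Insert.insert (c, α) R) := by
  have haa : a.Infinite := (hV.link _ ha _ ha).mono inter_subset_left
  refine hV.insert (haa.mono hac) ?_ ?_ ?_
  · intro p hp
    exact (hV.link _ ha p hp).mono (inter_subset_inter_left _ hac)
  · intro q hq hf
    exact hV.mono _ ha q hq (hf.subset (sdiff_subset_sdiff_left hac))
  · intro p hp hf
    refine hV.mono p hp (a, α) ha ?_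
    by_contra hinf
    have hW : (p.1 ∩ (b \ a)).Infinite := by
      refine inf_left (C := p.1 \ c) hinf ?_ hf
      rintro x ⟨hxp, hxa⟩
      by_cases hxb : x ∈ b
      · exact Or.inl ⟨hxp, hxb, hxa⟩
      · exact Or.inr ⟨hxp, fun hxc => hxb (hcb hxc)⟩
    exact ((hs p hp).1 hW).2 (hf.subset (fun x hx => ⟨hx.1.1, hx.2⟩))

/-- Removing a generic set from a large set keeps the rank. -/
theorem op_rem (hV : ValidR R) (hac : a ⊆ c) (hcb : c ⊆ b) (hs : SplitsAll R a b c)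
    (ha : (aᶜ, α) ∈ R) : ValidR (Insert.insert (cᶜ, α) R) := by
  have hl : ∀ p ∈ R, (cᶜ ∩ p.1).Infinite := by
    intro p hp
    have h0 : (aᶜ ∩ p.1).Infinite := hV.link _ ha p hp
    by_cases hW : (p.1 ∩ (b \ a)).Infinite
    · exact ((hs p hp).1 hW).2.mono (fun x hx => ⟨hx.2, hx.1.1⟩)
    · have h1 := inf_left (B := bᶜ ∩ p.1) (C := p.1 ∩ (b \ a)) h0 (by
        rintro x ⟨hxa, hxp⟩
        by_cases hxb : x ∈ b
        · exact Or.inr ⟨hxp, hxb, hxa⟩
        · exact Or.inl ⟨hxb, hxp⟩) (not_infinite.1 hW)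
      exact h1.mono (fun x hx => ⟨fun hxc => hx.1 (hcb hxc), hx.2⟩)
  refine hV.insert ((hl _ ha).mono inter_subset_left) hl ?_ ?_
  · intro q hq hf
    refine hV.mono (aᶜ, α) ha q hq ?_
    by_contra hinf
    have hW : ((b \ a) \ q.1).Infinite := by
      refine inf_left (C := cᶜ \ q.1) hinf ?_ hf
      rintro x ⟨hxa, hxq⟩
      by_cases hxb : x ∈ b
      · exact Or.inl ⟨⟨hxb, hxa⟩, hxq⟩
      · exact Or.inr ⟨fun hxc => hxb (hcb hxc), hxq⟩
    exact ((hs q hq).2 hW).2 (hf.subset (fun x hx => ⟨hx.2, hx.1.2⟩))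
  · intro p hp hf
    refine hV.mono p hp (aᶜ, α) ha (hf.subset ?_)
    exact fun x hx => ⟨hx.1, fun hxc => hx.2 (fun hxa => hxc (hac hxa))⟩

/-- A generic set between a small set and a large set gets a rank above all old ranks. -/
theorem op_high (hV : ValidR R) (hac : a ⊆ c) (hcb : c ⊆ b) (hs : SplitsAll R a b c)
    {α₁ α₂ : Rk} (ha : (aᶜ, α₁) ∈ R) (hb : (b, α₂) ∈ R) (hτ : ∀ p ∈ R, p.2 < τ) :
    ValidR (Insert.insert (c, τ) R) := by
  have hl : ∀ p ∈ R, (c ∩ p.1).Infinite := by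
    intro p hp
    have h0 : (b ∩ p.1).Infinite := hV.link _ hb p hp
    by_cases hW : (p.1 ∩ (b \ a)).Infinite
    · exact ((hs p hp).1 hW).1.mono (fun x hx => ⟨hx.2, hx.1.1⟩)
    · have h1 := inf_left (B := a ∩ p.1) (C := p.1 ∩ (b \ a)) h0 (by
        rintro x ⟨hxb, hxp⟩
        by_cases hxa : x ∈ a
        · exact Or.inl ⟨hxa, hxp⟩
        · exact Or.inr ⟨hxp, hxb, hxa⟩) (not_infinite.1 hW)
      exact h1.mono (fun x hx => ⟨hac hx.1, hx.2⟩)
  refine hV.insert ((hl _ hb).mono inter_subset_left) hl ?_ ?_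
  · intro q hq _
    exact (hτ q hq).le
  · intro p hp hf
    exfalso
    have h0 : (aᶜ ∩ p.1).Infinite := hV.link _ ha p hp
    by_cases hW : (p.1 ∩ (b \ a)).Infinite
    · exact ((hs p hp).1 hW).2 (hf.subset (fun x hx => ⟨hx.1.1, hx.2⟩))
    · have h1 := inf_left (B := p.1 \ c) (C := p.1 ∩ (b \ a)) h0 (by
        rintro x ⟨hxa, hxp⟩
        by_cases hxb : x ∈ b
        · exact Or.inr ⟨hxp, hxb, hxa⟩
        · exact Or.inl ⟨hxp, fun hxc => hxb (hcb hxc)⟩) (not_infinite.1 hW)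
      exact h1 hf

theorem SplitsAll.compl (hs : SplitsAll R a b c) : SplitsAll R bᶜ aᶜ cᶜ := by
  intro p hp
  have h := hs p hp
  rw [compl_sdiff_compl]
  exact ⟨h.1.compl, h.2.compl⟩

/-- Complement form of `op_add`. -/
theorem op_add' (hV : ValidR R) (hac : a ⊆ c) (hcb : c ⊆ b) (hs : SplitsAll R a b c)
    (hb : (bᶜ, α) ∈ R) : ValidR (Insert.insert (cᶜ, α) R) :=
  op_add hV (compl_subset_compl.2 hcb) (compl_subset_compl.2 hac) hs.compl hb

/-- Complement form of `op_rem`. -/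
theorem op_rem' (hV : ValidR R) (hac : a ⊆ c) (hcb : c ⊆ b) (hs : SplitsAll R a b c)
    (hb : (b, α) ∈ R) : ValidR (Insert.insert (c, α) R) := by
  have := op_rem (R := R) (a := bᶜ) (b := aᶜ) (c := cᶜ) (α := α) hV (compl_subset_compl.2 hcb)
    (compl_subset_compl.2 hac) hs.compl (by simpa using hb)
  simpa using this

/-- Complement form of `op_high`. -/
theorem op_high' (hV : ValidR R) (hac : a ⊆ c) (hcb : c ⊆ b) (hs : SplitsAll R a b c)
    {α₁ α₂ : Rk} (ha : (aᶜ, α₁) ∈ R) (hb : (b, α₂) ∈ R) (hτ : ∀ p ∈ R, p.2 < τ) :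
    ValidR (Insert.insert (cᶜ, τ) R) :=
  op_high hV (compl_subset_compl.2 hcb) (compl_subset_compl.2 hac) hs.compl
    (by simpa using hb) ha hτ

/-- Countable sets of ordinals are bounded, so countable relations have a strict rank bound. -/
theorem exists_rank_bound (hR : R.Countable) : ∃ τ : Rk, ∀ p ∈ R, p.2 < τ := by
  have hc : (Prod.snd '' R).Countable := hR.image _
  have : Countable (Prod.snd '' R) := hc.to_subtype
  have hb : BddAbove (Prod.snd '' R) := Ordinal.bddAbove_of_small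
  obtain ⟨u, hu⟩ := hb
  exact ⟨Order.succ u, fun p hp => Order.lt_succ_of_le (hu ⟨p, hp, rfl⟩)⟩

/-- Adding a set linked to everything, with the supremum rule for its rank. -/
theorem op_decide (hV : ValidR R) {Z : Set ℕ} (hZ : Z.Infinite)
    (hl : ∀ p ∈ R, (Z ∩ p.1).Infinite) :
    ∃ σ : Rk, ValidR (Insert.insert (Z, σ) R) := by
  have hc : (Prod.snd '' (R ∩ {r | (Z \ r.1).Finite})).Countable :=
    (hV.count.mono inter_subset_left).image _
  have : Countable (Prod.snd '' (R ∩ {r | (Z \ r.1).Finite})) := hc.to_subtype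
  have hb : BddAbove (Prod.snd '' (R ∩ {r | (Z \ r.1).Finite})) := Ordinal.bddAbove_of_small
  refine ⟨sSup (Prod.snd '' (R ∩ {r | (Z \ r.1).Finite})), hV.insert hZ hl ?_ ?_⟩
  · intro q hq hf
    exact le_csSup hb ⟨q, ⟨hq, hf⟩, rfl⟩
  · intro p hp hf
    refine csSup_le' ?_
    rintro _ ⟨r, ⟨hr, hrf⟩, rfl⟩
    refine hV.mono p hp r hr ((hf.union hrf).subset ?_)
    rintro x ⟨hxp, hxr⟩
    by_cases hxZ : x ∈ Z
    · exact Or.inr ⟨hxZ, hxr⟩
    · exact Or.inl ⟨hxp, hxZ⟩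

end Vale.Agent.Lib.P068.CH
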