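import Mathlib

namespace Vale.Agent.Lib.P068.CH

open Set

/-- `c` splits `S` if `S`, when infinite, has infinitely many points in `c` and outside `c`. -/
def Splits (c S : Set ℕ) : Prop := S.Infinite → (S ∩ c).Infinite ∧ (S \ c).Infinite

theorem exists_splitter_seq (S : ℕ → Set ℕ) : ∃ c, ∀ n, Splits c (S n) := by
  classical
  have step : ∀ (i m : ℕ), ∃ y, m < y ∧
      ((S (Nat.unpair i).1).Infinite → y ∈ S (Nat.unpair i).1) := by
    intro i m
    by_cases h : (S (Nat.unpair i).1).Infinite
    · obtain ⟨y, hy, hmy⟩ := h.exists_gt m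
      exact ⟨y, hmy, fun _ => hy⟩
    · exact ⟨m + 1, Nat.lt_succ_self m, fun h' => absurd h' h⟩
  choose nxt hnxt using step
  let x : ℕ → ℕ := fun i => Nat.rec (nxt 0 0) (fun i prev => nxt (i + 1) prev) i
  have hxs : ∀ i, x (i + 1) = nxt (i + 1) (x i) := fun i => rfl
  have hx : StrictMono x := strictMono_nat_of_lt_succ (fun i => by
    rw [hxs]; exact (hnxt (i + 1) (x i)).1)
  have hmem : ∀ i, (S (Nat.unpair i).1).Infinite → x i ∈ S (Nat.unpair i).1 := by
    intro i
    cases i with
    | zero => exact (hnxt 0 0).2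
    | succ i => rw [hxs]; exact (hnxt (i + 1) (x i)).2
  refine ⟨x '' {i | Even (Nat.unpair i).2}, ?_⟩
  intro n hn
  constructor
  · apply Set.infinite_of_injective_forall_mem (f := fun m : ℕ => x (Nat.pair n (2 * m)))
    · intro a b hab
      have h1 := hx.injective hab
      have h2 := Nat.pair_eq_pair.1 h1
      omega
    · intro m
      refine ⟨?_, ⟨Nat.pair n (2 * m), ?_, rfl⟩⟩
      · have := hmem (Nat.pair n (2 * m))
        simp only [Nat.unpair_pair] at this
        exact this hn
      · simp [Nat.unpair_pair]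
  · apply Set.infinite_of_injective_forall_mem (f := fun m : ℕ => x (Nat.pair n (2 * m + 1)))
    · intro a b hab
      have h1 := hx.injective hab
      have h2 := Nat.pair_eq_pair.1 h1
      omega
    · intro m
      refine ⟨?_, ?_⟩
      · have := hmem (Nat.pair n (2 * m + 1))
        simp only [Nat.unpair_pair] at this
        exact this hn
      · rintro ⟨i, hi, hxi⟩
        have h1 := hx.injective hxi
        subst h1
        simp only [mem_ofPred_eq, Nat.unpair_pair] at hi
        exact (Nat.not_even_iff_odd.2 ⟨m, rfl⟩) hi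

theorem exists_splitter (F : Set (Set ℕ)) (hF : F.Countable) :
    ∃ c, ∀ S ∈ F, Splits c S := by
  rcases F.eq_empty_or_nonempty with rfl | hne
  · exact ⟨∅, by simp⟩
  · obtain ⟨S, hS⟩ := hF.exists_eq_range hne
    obtain ⟨c, hc⟩ := exists_splitter_seq S
    refine ⟨c, ?_⟩
    rw [hS]
    rintro _ ⟨n, rfl⟩
    exact hc n

theorem Splits.compl {c S : Set ℕ} (h : Splits c S) : Splits cᶜ S := by
  intro hS
  obtain ⟨h1, h2⟩ := h hS
  constructor
  · simpa [Set.sdiff_eq] using h2
  · simpa [Set.sdiff_eq] using h1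

end Vale.Agent.Lib.P068.CH
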