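import Vale.Agent.Lib.P068.CH.Limit

namespace Vale.Agent.Lib.P068.CH

open Set

/-- The subset of `Bool × ℕ` with left part `C` and right part `X`. -/
def glue (C X : Set ℕ) : Set (Bool × ℕ) :=
  {p | (p.1 = false ∧ p.2 ∈ C) ∨ (p.1 = true ∧ p.2 ∈ X)}

/-- Left part. -/
def lft (S : Set (Bool × ℕ)) : Set ℕ := {n | (false, n) ∈ S}

/-- Right part. -/
def rgt (S : Set (Bool × ℕ)) : Set ℕ := {n | (true, n) ∈ S}

@[simp] theorem mem_glue_false {C X : Set ℕ} {n : ℕ} : (false, n) ∈ glue C X ↔ n ∈ C := by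
  simp [glue]

@[simp] theorem mem_glue_true {C X : Set ℕ} {n : ℕ} : (true, n) ∈ glue C X ↔ n ∈ X := by
  simp [glue]

theorem glue_lft_rgt (S : Set (Bool × ℕ)) : glue (lft S) (rgt S) = S := by
  ext ⟨b, n⟩
  cases b <;> simp [lft, rgt]

theorem glue_sdiff_finite_iff {A B C D : Set ℕ} :
    (glue A B \ glue C D).Finite ↔ (A \ C).Finite ∧ (B \ D).Finite := by
  constructor
  · intro h
    constructor
    · refine (h.preimage (f := fun n => (false, n)) ?_).subset ?_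
      · intro a _ b _ hab; simpa using hab
      · rintro n ⟨h1, h2⟩
        exact ⟨mem_glue_false.2 h1, fun h3 => h2 (mem_glue_false.1 h3)⟩
    · refine (h.preimage (f := fun n => (true, n)) ?_).subset ?_
      · intro a _ b _ hab; simpa using hab
      · rintro n ⟨h1, h2⟩
        exact ⟨mem_glue_true.2 h1, fun h3 => h2 (mem_glue_true.1 h3)⟩
  · rintro ⟨h1, h2⟩
    refine ((h1.image (fun n => (false, n))).union (h2.image (fun n => (true, n)))).subset ?_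
    rintro ⟨b, n⟩ ⟨h3, h4⟩
    cases b
    · exact Or.inl ⟨n, ⟨mem_glue_false.1 h3, fun h5 => h4 (mem_glue_false.2 h5)⟩, rfl⟩
    · exact Or.inr ⟨n, ⟨mem_glue_true.1 h3, fun h5 => h4 (mem_glue_true.2 h5)⟩, rfl⟩

/-- The uniform matroid together with the large sets and their ranks. -/
theorem exists_structure (hCH : Cardinal.aleph.{0} 1 = Cardinal.continuum.{0}) :
    ∃ (L : Set (Set ℕ)) (r : Set ℕ → Rk) (U : Matroid (Bool × ℕ)),
      U.E = univ ∧ (∀ S, U.Indep S ∨ ∃ B, U.IsBase B ∧ B ⊆ S) ∧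
      ∅ ∉ L ∧ univ ∈ L ∧ (∀ Z, Z ∈ L ↔ Zᶜ ∉ L) ∧
      (∀ C X, C ∈ L → X ∈ L → ¬ U.Indep (glue C X)) ∧
      (∀ C X, C ∉ L → X ∉ L → ¬ ∃ B, U.IsBase B ∧ B ⊆ glue C X) ∧
      (∀ C X, C ∉ L → X ∈ L → r X ≤ r Cᶜ → ¬ U.Indep (glue C X)) ∧
      (∀ C X, C ∈ L → X ∉ L → r Xᶜ ≤ r C → ¬ ∃ B, U.IsBase B ∧ B ⊆ glue C X) := by
  classical
  obtain ⟨d⟩ := exists_data hCH
  let G : Set (Set (Bool × ℕ)) := (fun g : Set ℕ × Set ℕ => glue g.1 g.2) '' d.G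
  have hanti : ∀ g ∈ G, ∀ h ∈ G, (g \ h).Finite → g = h := by
    rintro _ ⟨g, hg, rfl⟩ _ ⟨h, hh, rfl⟩ hf
    have := d.anti g hg h hh (glue_sdiff_finite_iff.1 hf)
    rw [this]
  have hspan : ∀ S : Set (Bool × ℕ), ∃ g ∈ G, (S \ g).Finite ∨ (g \ S).Finite := by
    intro S
    obtain ⟨g, hg, h⟩ := d.span (lft S, rgt S)
    refine ⟨_, ⟨g, hg, rfl⟩, ?_⟩
    rcases h with h | h
    · left
      rw [← glue_lft_rgt S]
      exact glue_sdiff_finite_iff.2 h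
    · right
      rw [← glue_lft_rgt S]
      exact glue_sdiff_finite_iff.2 h
  have hint : ∀ I T : Set (Bool × ℕ), I ⊆ T → (∃ g ∈ G, (I \ g).Finite) →
      (∃ g ∈ G, (g \ T).Finite) → ∃ g ∈ G, (I \ g).Finite ∧ (g \ T).Finite := by
    rintro I T hIT ⟨_, ⟨g₁, hg₁, rfl⟩, h₁⟩ ⟨_, ⟨g₂, hg₂, rfl⟩, h₂⟩
    rw [← glue_lft_rgt I] at h₁
    rw [← glue_lft_rgt T] at h₂
    obtain ⟨g, hg, h₃, h₄⟩ := d.interval (lft I, rgt I) (lft T, rgt T)
      (fun n hn => hIT hn) (fun n hn => hIT hn)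
      ⟨g₁, hg₁, glue_sdiff_finite_iff.1 h₁⟩ ⟨g₂, hg₂, glue_sdiff_finite_iff.1 h₂⟩
    refine ⟨_, ⟨g, hg, rfl⟩, ?_, ?_⟩
    · rw [← glue_lft_rgt I]
      exact glue_sdiff_finite_iff.2 h₃
    · rw [← glue_lft_rgt T]
      exact glue_sdiff_finite_iff.2 h₄
  obtain ⟨U, hE, h1, h2, h3⟩ := exists_unif G hanti hspan hint
  let L : Set (Set ℕ) := {Z | ∃ x, (Z, x) ∈ d.R}
  let r : Set ℕ → Rk := fun Z => if h : ∃ x, (Z, x) ∈ d.R then Classical.choose h else 0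
  have hr : ∀ Z, Z ∈ L → (Z, r Z) ∈ d.R := by
    intro Z hZ
    have hZ' : ∃ x, (Z, x) ∈ d.R := hZ
    simp only [r, dif_pos hZ']
    exact Classical.choose_spec hZ'
  have hcompl : ∀ Z, Z ∉ L → Zᶜ ∈ L := by
    intro Z hZ
    rcases d.dec Z with h | h
    · exact absurd h hZ
    · exact h
  have hHi : ∀ C X, IsHi d.R (C, X) → ¬ U.Indep (glue C X) := by
    intro C X hS hI
    obtain ⟨_, ⟨g, hg, rfl⟩, hf⟩ := h1 _ hI
    exact d.hi_free_false hS (glue_sdiff_finite_iff.1 hf) (d.free g hg)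
  have hLo : ∀ C X, IsLo d.R (C, X) → ¬ ∃ B, U.IsBase B ∧ B ⊆ glue C X := by
    intro C X hS hB
    obtain ⟨_, ⟨g, hg, rfl⟩, hf⟩ := h2 _ hB
    exact d.lo_free_false hS (glue_sdiff_finite_iff.1 hf) (d.free g hg)
  refine ⟨L, r, U, hE, h3, ?_, ?_, ?_, ?_, ?_, ?_, ?_⟩
  · rintro ⟨x, hx⟩
    exact d.empty_notMem hx
  · by_contra h
    obtain ⟨x, hx⟩ := hcompl _ h
    simp only [compl_univ] at hx
    exact d.empty_notMem hx
  · intro Z
    constructor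
    · rintro ⟨x, hx⟩ ⟨y, hy⟩
      exact d.not_both hx hy
    · intro h
      by_contra hZ
      exact h (hcompl Z hZ)
  · intro C X hC hX
    exact hHi C X (Or.inl ⟨_, _, hr C hC, hr X hX⟩)
  · intro C X hC hX
    exact hLo C X (Or.inl ⟨_, _, hr _ (hcompl C hC), hr _ (hcompl X hX)⟩)
  · intro C X hC hX hle
    exact hHi C X (Or.inr ⟨_, _, hr _ (hcompl C hC), hr X hX, hle⟩)
  · intro C X hC hX hle
    exact hLo C X (Or.inr ⟨_, _, hr C hC, hr _ (hcompl X hX), hle⟩)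

end Vale.Agent.Lib.P068.CH
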